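import Mathlib

/-!
# Ordered copies of square binary patterns, and block patterns

Statement-level definitions for the removal bound for blow-ups of the 2 x 2 identity pattern.
A binary matrix is a function `Fin n → Fin n → Bool` (`true` is the entry 1).
-/

namespace Vale.Agent.Lib.P037B

/-- `IsCopy H A ρ γ`: the rows `ρ 0 < ρ 1 < ...` and the columns `γ 0 < γ 1 < ...` of the
`n x n` binary matrix `A` carry an ordered copy of the `k x k` binary pattern `H`, that is
`A (ρ i) (γ j) = H i j` for all `i`, `j`. -/
def IsCopy {k n : ℕ} (H : Fin k → Fin k → Bool) (A : Fin n → Fin n → Bool)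
    (ρ γ : Fin k → Fin n) : Prop :=
  StrictMono ρ ∧ StrictMono γ ∧ ∀ i j, A (ρ i) (γ j) = H i j

/-- The number `N_H(A)` of ordered copies of `H` in `A`: the number of pairs `(ρ, γ)` with
`IsCopy H A ρ γ`. -/
noncomputable def copies {k n : ℕ} (H : Fin k → Fin k → Bool) (A : Fin n → Fin n → Bool) : ℕ :=
  Set.ncard {x : (Fin k → Fin n) × (Fin k → Fin n) | IsCopy H A x.1 x.2}

/-- `B` contains no ordered copy of `H`. -/
def Free {k n : ℕ} (H : Fin k → Fin k → Bool) (B : Fin n → Fin n → Bool) : Prop :=
  ∀ ρ γ : Fin k → Fin n, ¬ IsCopy H B ρ γ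

/-- The number of entries in which the matrices `A` and `B` differ. -/
def entryDiff {n : ℕ} (A B : Fin n → Fin n → Bool) : ℕ :=
  (Finset.univ.filter (fun x : Fin n × Fin n => A x.1 x.2 ≠ B x.1 x.2)).card

/-- The block pattern `H_{k,p,q}`: the `k x k` binary pattern whose entry `(i, j)` is 1 exactly
when `i < p` and `j < q`, or `p ≤ i` and `q ≤ j` (rows and columns numbered from 0).  It is the
2 x 2 identity pattern `[[1,0],[0,1]]` with its first row repeated `p` times, its second row
`k - p` times, its first column `q` times and its second column `k - q` times. -/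
def blockPattern (k p q : ℕ) : Fin k → Fin k → Bool :=
  fun i j => decide (((i : ℕ) < p ∧ (j : ℕ) < q) ∨ (p ≤ (i : ℕ) ∧ q ≤ (j : ℕ)))

/-- The mirrored block pattern: the `k x k` binary pattern whose entry `(i, j)` is 1 exactly
when `i < p` and `q ≤ j`, or `p ≤ i` and `j < q`.  It is the pattern `[[0,1],[1,0]]` with its
first row repeated `p` times, its second row `k - p` times, its first column `q` times and its
second column `k - q` times. -/
def antiBlockPattern (k p q : ℕ) : Fin k → Fin k → Bool :=
  fun i j => decide (((i : ℕ) < p ∧ q ≤ (j : ℕ)) ∨ (p ≤ (i : ℕ) ∧ (j : ℕ) < q))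

end Vale.Agent.Lib.P037B
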