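import Mathlib

/-!
# Supersaturation for complete four-partite blow-ups

Four rounds of the power mean inequality: if a four-place relation on `Fin n` has density `d`,
then the tuples of functions all of whose value combinations lie in the relation have density at
least `d ^ (a * b * c * e)`.
-/

namespace Vale.Agent.Lib.P037B

open Finset

/-- One round of the power mean inequality. -/
theorem round_base {X Y : Type*} [Fintype X] [Fintype Y] (w : X → Y → ℝ)
    (hw : ∀ x y, 0 ≤ w x y) (a : ℕ) :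
    (∑ y, ∑ x, w x y) ^ (a + 1) ≤
      (Fintype.card Y : ℝ) ^ a * ∑ y, ∑ f : Fin (a + 1) → X, ∏ i, w (f i) y := by
  classical
  have h1 := pow_sum_div_card_le_sum_pow (s := (Finset.univ : Finset Y))
    (f := fun y => ∑ x, w x y) (fun y _ => Finset.sum_nonneg (fun x _ => hw x y)) a
  have h2 : ∀ y, (∑ x, w x y) ^ (a + 1) = ∑ f : Fin (a + 1) → X, ∏ i, w (f i) y := by
    intro y
    rw [Finset.sum_pow']
    simp
  rw [Finset.card_univ] at h1
  rcases Nat.eq_zero_or_pos (Fintype.card Y) with h0 | hpos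
  · have hemp : IsEmpty Y := Fintype.card_eq_zero_iff.mp h0
    simp
  · have hpos' : (0 : ℝ) < (Fintype.card Y : ℝ) ^ a := by positivity
    rw [div_le_iff₀ hpos'] at h1
    calc (∑ y, ∑ x, w x y) ^ (a + 1) ≤ (∑ y, (∑ x, w x y) ^ (a + 1)) * (Fintype.card Y : ℝ) ^ a := h1
      _ = (Fintype.card Y : ℝ) ^ a * ∑ y, ∑ f : Fin (a + 1) → X, ∏ i, w (f i) y := by
          rw [mul_comm]
          congr 1
          exact Finset.sum_congr rfl (fun y _ => h2 y)

/-- One round, with three passive variables, in density form.  The active variable comes first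
on the left and its blow-up comes last on the right. -/
theorem round_rot {X P Q S : Type*} [Fintype X] [Fintype P] [Fintype Q] [Fintype S]
    (w : X → P → Q → S → ℝ) (hw : ∀ x p q s, 0 ≤ w x p q s) (a : ℕ) (ha : 0 < a)
    (hX : 0 < Fintype.card X) (hP : 0 < Fintype.card P) (hQ : 0 < Fintype.card Q)
    (hS : 0 < Fintype.card S) :
    ((∑ x, ∑ p, ∑ q, ∑ s, w x p q s) /
        ((Fintype.card X : ℝ) * Fintype.card P * Fintype.card Q * Fintype.card S)) ^ a ≤
      (∑ p, ∑ q, ∑ s, ∑ f : Fin a → X, ∏ i, w (f i) p q s) /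
        ((Fintype.card P : ℝ) * Fintype.card Q * Fintype.card S * (Fintype.card X : ℝ) ^ a) := by
  classical
  obtain ⟨b, rfl⟩ : ∃ b, a = b + 1 := ⟨a - 1, by omega⟩
  have h := round_base (X := X) (Y := P × Q × S) (fun x y => w x y.1 y.2.1 y.2.2)
    (fun x y => hw x y.1 y.2.1 y.2.2) b
  simp only [Fintype.sum_prod_type, Fintype.card_prod, Nat.cast_mul] at h
  have hsw : (∑ p, ∑ q, ∑ s, ∑ x, w x p q s) = ∑ x, ∑ p, ∑ q, ∑ s, w x p q s := by
    calc (∑ p, ∑ q, ∑ s, ∑ x, w x p q s) = ∑ p, ∑ q, ∑ x, ∑ s, w x p q s :=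
          Finset.sum_congr rfl (fun p _ => Finset.sum_congr rfl (fun q _ => Finset.sum_comm))
      _ = ∑ p, ∑ x, ∑ q, ∑ s, w x p q s := Finset.sum_congr rfl (fun p _ => Finset.sum_comm)
      _ = ∑ x, ∑ p, ∑ q, ∑ s, w x p q s := Finset.sum_comm
  rw [hsw] at h
  have hXr : (0 : ℝ) < Fintype.card X := by exact_mod_cast hX
  have hPr : (0 : ℝ) < Fintype.card P := by exact_mod_cast hP
  have hQr : (0 : ℝ) < Fintype.card Q := by exact_mod_cast hQ
  have hSr : (0 : ℝ) < Fintype.card S := by exact_mod_cast hS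
  rw [div_pow, div_le_div_iff₀ (by positivity) (by positivity)]
  set T := ∑ x, ∑ p, ∑ q, ∑ s, w x p q s with hT
  set T' := ∑ p, ∑ q, ∑ s, ∑ f : Fin (b + 1) → X, ∏ i, w (f i) p q s with hT'
  have hT'0 : 0 ≤ T' := by
    rw [hT']
    refine Finset.sum_nonneg (fun p _ => Finset.sum_nonneg (fun q _ => Finset.sum_nonneg
      (fun s _ => Finset.sum_nonneg (fun f _ => Finset.prod_nonneg (fun i _ => hw _ _ _ _)))))
  set cX := (Fintype.card X : ℝ) with hcX
  set cY := (Fintype.card P : ℝ) * ((Fintype.card Q : ℝ) * (Fintype.card S : ℝ)) with hcY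
  have hcY0 : 0 < cY := by positivity
  have e1 : (Fintype.card P : ℝ) * Fintype.card Q * Fintype.card S * cX ^ (b + 1)
      = cY * cX ^ (b + 1) := by rw [hcY]; ring
  have e2 : (cX * (Fintype.card P : ℝ) * Fintype.card Q * Fintype.card S) ^ (b + 1)
      = cX ^ (b + 1) * (cY ^ b * cY) := by rw [hcY, ← pow_succ, ← mul_pow]; congr 1; ring
  rw [e1, e2]
  calc T ^ (b + 1) * (cY * cX ^ (b + 1)) ≤ (cY ^ b * T') * (cY * cX ^ (b + 1)) :=
        mul_le_mul_of_nonneg_right h (by positivity)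
    _ = T' * (cX ^ (b + 1) * (cY ^ b * cY)) := by ring

/-- Four rounds: the weighted count of complete four-partite blow-ups. -/
theorem four_sum {n : ℕ} (hn : 0 < n) (w : Fin n → Fin n → Fin n → Fin n → ℝ)
    (hw : ∀ x1 x2 x3 x4, 0 ≤ w x1 x2 x3 x4) (a b c e : ℕ) (ha : 0 < a) (hb : 0 < b)
    (hc : 0 < c) (he : 0 < e) :
    ((∑ x1, ∑ x2, ∑ x3, ∑ x4, w x1 x2 x3 x4) / (n : ℝ) ^ 4) ^ (a * b * c * e) ≤
      (∑ f1 : Fin a → Fin n, ∑ f2 : Fin b → Fin n, ∑ f3 : Fin c → Fin n, ∑ f4 : Fin e → Fin n,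
        ∏ l, ∏ k, ∏ j, ∏ i, w (f1 i) (f2 j) (f3 k) (f4 l)) / (n : ℝ) ^ (a + b + c + e) := by
  classical
  have hV : 0 < Fintype.card (Fin n) := by simpa using hn
  have hF : ∀ m : ℕ, 0 < Fintype.card (Fin m → Fin n) := by
    intro m
    rw [Fintype.card_fun, Fintype.card_fin, Fintype.card_fin]
    exact pow_pos hn m
  have hcF : ∀ m : ℕ, (Fintype.card (Fin m → Fin n) : ℝ) = (n : ℝ) ^ m := by
    intro m
    rw [Fintype.card_fun, Fintype.card_fin, Fintype.card_fin, Nat.cast_pow]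
  have hcV : (Fintype.card (Fin n) : ℝ) = (n : ℝ) := by rw [Fintype.card_fin]
  have hnr : (0 : ℝ) < (n : ℝ) := by exact_mod_cast hn
  have r1 := round_rot w hw a ha hV hV hV hV
  have r2 := round_rot (fun x2 x3 x4 (f1 : Fin a → Fin n) => ∏ i, w (f1 i) x2 x3 x4)
    (fun _ _ _ _ => Finset.prod_nonneg (fun i _ => hw _ _ _ _)) b hb hV hV hV (hF a)
  have r3 := round_rot (fun x3 x4 (f1 : Fin a → Fin n) (f2 : Fin b → Fin n) =>
      ∏ j, ∏ i, w (f1 i) (f2 j) x3 x4)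
    (fun _ _ _ _ => Finset.prod_nonneg (fun j _ => Finset.prod_nonneg (fun i _ => hw _ _ _ _)))
    c hc hV hV (hF a) (hF b)
  have r4 := round_rot (fun x4 (f1 : Fin a → Fin n) (f2 : Fin b → Fin n) (f3 : Fin c → Fin n) =>
      ∏ k, ∏ j, ∏ i, w (f1 i) (f2 j) (f3 k) x4)
    (fun _ _ _ _ => Finset.prod_nonneg (fun k _ => Finset.prod_nonneg (fun j _ =>
      Finset.prod_nonneg (fun i _ => hw _ _ _ _))))
    e he hV (hF a) (hF b) (hF c)
  simp only [hcF, hcV] at r1 r2 r3 r4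
  have key : ∀ (d0 D1 D2 D3 D4 : ℝ), 0 ≤ d0 → 0 ≤ D1 → 0 ≤ D2 → 0 ≤ D3 → d0 ^ a ≤ D1 →
      D1 ^ b ≤ D2 → D2 ^ c ≤ D3 → D3 ^ e ≤ D4 → d0 ^ (a * b * c * e) ≤ D4 := by
    intro d0 D1 D2 D3 D4 h0 h1 h2 h3 q1 q2 q3 q4
    calc d0 ^ (a * b * c * e) = (((d0 ^ a) ^ b) ^ c) ^ e := by
          rw [← pow_mul, ← pow_mul, ← pow_mul, mul_assoc, mul_assoc]
      _ ≤ ((D1 ^ b) ^ c) ^ e := by gcongr
      _ ≤ (D2 ^ c) ^ e := by gcongr
      _ ≤ D3 ^ e := by gcongr
      _ ≤ D4 := q4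
  have hs0 : 0 ≤ ∑ x1, ∑ x2, ∑ x3, ∑ x4, w x1 x2 x3 x4 :=
    Finset.sum_nonneg (fun _ _ => Finset.sum_nonneg (fun _ _ => Finset.sum_nonneg
      (fun _ _ => Finset.sum_nonneg (fun _ _ => hw _ _ _ _))))
  have hs1 : 0 ≤ ∑ x2, ∑ x3, ∑ x4, ∑ f1 : Fin a → Fin n, ∏ i, w (f1 i) x2 x3 x4 :=
    Finset.sum_nonneg (fun _ _ => Finset.sum_nonneg (fun _ _ => Finset.sum_nonneg
      (fun _ _ => Finset.sum_nonneg (fun _ _ => Finset.prod_nonneg (fun i _ => hw _ _ _ _)))))
  have hs2 : 0 ≤ ∑ x3, ∑ x4, ∑ f1 : Fin a → Fin n, ∑ f2 : Fin b → Fin n,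
      ∏ j, ∏ i, w (f1 i) (f2 j) x3 x4 :=
    Finset.sum_nonneg (fun _ _ => Finset.sum_nonneg (fun _ _ => Finset.sum_nonneg
      (fun _ _ => Finset.sum_nonneg (fun _ _ => Finset.prod_nonneg (fun j _ =>
        Finset.prod_nonneg (fun i _ => hw _ _ _ _))))))
  have hs3 : 0 ≤ ∑ x4, ∑ f1 : Fin a → Fin n, ∑ f2 : Fin b → Fin n, ∑ f3 : Fin c → Fin n,
      ∏ k, ∏ j, ∏ i, w (f1 i) (f2 j) (f3 k) x4 :=
    Finset.sum_nonneg (fun _ _ => Finset.sum_nonneg (fun _ _ => Finset.sum_nonneg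
      (fun _ _ => Finset.sum_nonneg (fun _ _ => Finset.prod_nonneg (fun k _ =>
        Finset.prod_nonneg (fun j _ => Finset.prod_nonneg (fun i _ => hw _ _ _ _)))))))
  have hfin := key _ _ _ _ _ (div_nonneg hs0 (by positivity)) (div_nonneg hs1 (by positivity))
    (div_nonneg hs2 (by positivity)) (div_nonneg hs3 (by positivity)) r1 r2 r3 r4
  have e1 : (n : ℝ) * n * n * n = (n : ℝ) ^ 4 := by ring
  have e2 : (n : ℝ) ^ a * (n : ℝ) ^ b * (n : ℝ) ^ c * (n : ℝ) ^ e = (n : ℝ) ^ (a + b + c + e) := by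
    rw [pow_add, pow_add, pow_add]
  rw [e1, e2] at hfin
  exact hfin

/-- The size of a set in a finite type as the size of a filtered finite set. -/
theorem ncard_eq_card_filter {α : Type*} [Fintype α] (P : α → Prop) [DecidablePred P] :
    Set.ncard {x | P x} = (Finset.univ.filter P).card := by
  rw [← Set.ncard_coe_finset]
  congr 1
  ext x
  simp

/-- The size of a set in a finite type as a sum of indicators. -/
theorem ncard_eq_sum {α : Type*} [Fintype α] (P : α → Prop) [DecidablePred P] :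
    (Set.ncard {x | P x} : ℝ) = ∑ x, if P x then (1 : ℝ) else 0 := by
  rw [ncard_eq_card_filter, Finset.natCast_card_filter]

/-- Supersaturation: if the four-place relation `G` on `Fin n` has density `d` then the tuples
`(f1, f2, f3, f4)` of functions with `G (f1 i) (f2 j) (f3 k) (f4 l)` for all `i, j, k, l` have
density at least `d ^ (a * b * c * e)`. -/
theorem four_count {n : ℕ} (hn : 0 < n) (G : Fin n → Fin n → Fin n → Fin n → Prop)
    (a b c e : ℕ) (ha : 0 < a) (hb : 0 < b) (hc : 0 < c) (he : 0 < e) :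
    ((Set.ncard {x : Fin n × Fin n × Fin n × Fin n | G x.1 x.2.1 x.2.2.1 x.2.2.2} : ℝ)
        / (n : ℝ) ^ 4) ^ (a * b * c * e) ≤
      (Set.ncard {t : (Fin a → Fin n) × (Fin b → Fin n) × (Fin c → Fin n) × (Fin e → Fin n) |
          ∀ i j k l, G (t.1 i) (t.2.1 j) (t.2.2.1 k) (t.2.2.2 l)} : ℝ)
        / (n : ℝ) ^ (a + b + c + e) := by
  classical
  have h := four_sum hn (fun x1 x2 x3 x4 => if G x1 x2 x3 x4 then (1 : ℝ) else 0)
    (by intro x1 x2 x3 x4; split_ifs <;> norm_num) a b c e ha hb hc he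
  have e1 : (Set.ncard {x : Fin n × Fin n × Fin n × Fin n | G x.1 x.2.1 x.2.2.1 x.2.2.2} : ℝ)
      = ∑ x1, ∑ x2, ∑ x3, ∑ x4, if G x1 x2 x3 x4 then (1 : ℝ) else 0 := by
    rw [ncard_eq_sum]
    simp only [Fintype.sum_prod_type]
  have e2 : (Set.ncard {t : (Fin a → Fin n) × (Fin b → Fin n) × (Fin c → Fin n) ×
        (Fin e → Fin n) | ∀ i j k l, G (t.1 i) (t.2.1 j) (t.2.2.1 k) (t.2.2.2 l)} : ℝ)
      = ∑ f1 : Fin a → Fin n, ∑ f2 : Fin b → Fin n, ∑ f3 : Fin c → Fin n, ∑ f4 : Fin e → Fin n,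
        ∏ l, ∏ k, ∏ j, ∏ i, if G (f1 i) (f2 j) (f3 k) (f4 l) then (1 : ℝ) else 0 := by
    rw [ncard_eq_sum]
    simp only [Fintype.sum_prod_type]
    refine Finset.sum_congr rfl (fun f1 _ => Finset.sum_congr rfl (fun f2 _ =>
      Finset.sum_congr rfl (fun f3 _ => Finset.sum_congr rfl (fun f4 _ => ?_))))
    by_cases hall : ∀ i j k l, G (f1 i) (f2 j) (f3 k) (f4 l)
    · rw [if_pos hall]
      symm
      exact Finset.prod_eq_one (fun l _ => Finset.prod_eq_one (fun k _ =>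
        Finset.prod_eq_one (fun j _ => Finset.prod_eq_one (fun i _ => if_pos (hall i j k l)))))
    · rw [if_neg hall]
      push Not at hall
      obtain ⟨i, j, k, l, hG⟩ := hall
      symm
      exact Finset.prod_eq_zero (Finset.mem_univ l) (Finset.prod_eq_zero (Finset.mem_univ k)
        (Finset.prod_eq_zero (Finset.mem_univ j) (Finset.prod_eq_zero (Finset.mem_univ i)
          (if_neg hG))))
  rw [e1, e2]
  exact h

end Vale.Agent.Lib.P037B
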