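import Mathlib
import Vale.Agent.Lib.P037B.Defs
import Vale.Agent.Lib.P037B.Super

/-!
# Blow-ups of 2 x 2 patterns inherit polynomial removal bounds

If the removal bound holds for a 2 x 2 pattern `H₀` (counted by quadruples), it holds for every
blow-up of `H₀` to a `k x k` pattern, with the exponent multiplied by `2 k p (k-p) q (k-q)`.
-/

namespace Vale.Agent.Lib.P037B

open Finset

/-- The rows `r1 < r2` and columns `c1 < c2` of `A` carry an ordered copy of the 2 x 2 pattern
`H₀`. -/
def Quad {n : ℕ} (H₀ : Fin 2 → Fin 2 → Bool) (A : Fin n → Fin n → Bool)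
    (r1 r2 c1 c2 : Fin n) : Prop :=
  r1 < r2 ∧ c1 < c2 ∧ A r1 c1 = H₀ 0 0 ∧ A r1 c2 = H₀ 0 1 ∧ A r2 c1 = H₀ 1 0 ∧ A r2 c2 = H₀ 1 1

/-- The number of ordered copies of the 2 x 2 pattern `H₀` in `A`, counted as quadruples. -/
noncomputable def qcount {n : ℕ} (H₀ : Fin 2 → Fin 2 → Bool) (A : Fin n → Fin n → Bool) : ℕ :=
  Set.ncard {x : Fin n × Fin n × Fin n × Fin n | Quad H₀ A x.1 x.2.1 x.2.2.1 x.2.2.2}

/-- The blow-up of the 2 x 2 pattern `H₀`: first row repeated `p` times, second row `k - p`
times, first column `q` times, second column `k - q` times. -/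
def blow (H₀ : Fin 2 → Fin 2 → Bool) (k p q : ℕ) : Fin k → Fin k → Bool :=
  fun i j => H₀ (if (i : ℕ) < p then 0 else 1) (if (j : ℕ) < q then 0 else 1)

/-- A matrix with no quadruple copy of `H₀` has no ordered copy of a blow-up of `H₀`. -/
theorem free_of_qfree {n : ℕ} (H₀ : Fin 2 → Fin 2 → Bool) (k p q : ℕ) (hp : 0 < p) (hpk : p < k)
    (hq : 0 < q) (hqk : q < k) (B : Fin n → Fin n → Bool)
    (hB : ∀ r1 r2 c1 c2, ¬ Quad H₀ B r1 r2 c1 c2) : Free (blow H₀ k p q) B := by
  intro ρ γ hcopy
  obtain ⟨hρ, hγ, hent⟩ := hcopy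
  have hp1 : p - 1 < k := by omega
  have hq1 : q - 1 < k := by omega
  apply hB (ρ ⟨p - 1, hp1⟩) (ρ ⟨p, hpk⟩) (γ ⟨q - 1, hq1⟩) (γ ⟨q, hqk⟩)
  refine ⟨hρ (Fin.mk_lt_mk.mpr (by omega)), hγ (Fin.mk_lt_mk.mpr (by omega)), ?_, ?_, ?_, ?_⟩
  · rw [hent]
    unfold blow
    rw [if_pos (show p - 1 < p by omega), if_pos (show q - 1 < q by omega)]
  · rw [hent]
    unfold blow
    rw [if_pos (show p - 1 < p by omega), if_neg (show ¬ q < q by omega)]
  · rw [hent]
    unfold blow
    rw [if_neg (show ¬ p < p by omega), if_pos (show q - 1 < q by omega)]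
  · rw [hent]
    unfold blow
    rw [if_neg (show ¬ p < p by omega), if_neg (show ¬ q < q by omega)]

/-- The increasing rearrangement of an injective function (any other function is left alone). -/
noncomputable def srt {a n : ℕ} (f : Fin a → Fin n) : Fin a → Fin n :=
  if h : Function.Injective f then
    ⇑((Finset.univ.image f).orderEmbOfFin
      (by rw [Finset.card_image_of_injective _ h, Finset.card_univ, Fintype.card_fin]))
  else f

theorem srt_strictMono {a n : ℕ} {f : Fin a → Fin n} (h : Function.Injective f) :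
    StrictMono (srt f) := by
  unfold srt
  rw [dif_pos h]
  exact OrderEmbedding.strictMono _

theorem srt_mem {a n : ℕ} {f : Fin a → Fin n} (h : Function.Injective f) (i : Fin a) :
    ∃ j, srt f i = f j := by
  unfold srt
  rw [dif_pos h]
  have hm := Finset.orderEmbOfFin_mem (Finset.univ.image f)
    (by rw [Finset.card_image_of_injective _ h, Finset.card_univ, Fintype.card_fin]) i
  obtain ⟨j, _, hj⟩ := Finset.mem_image.mp hm
  exact ⟨j, hj.symm⟩

theorem mem_srt {a n : ℕ} {f : Fin a → Fin n} (h : Function.Injective f) (j : Fin a) :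
    ∃ i, f j = srt f i := by
  unfold srt
  rw [dif_pos h]
  have hr := Finset.range_orderEmbOfFin (Finset.univ.image f) (k := a)
    (by rw [Finset.card_image_of_injective _ h, Finset.card_univ, Fintype.card_fin])
  have hj : f j ∈ ((Finset.univ.image f : Finset (Fin n)) : Set (Fin n)) := by simp
  rw [← hr] at hj
  obtain ⟨i, hi⟩ := hj
  exact ⟨i, hi.symm⟩

/-- Glue `u` (the first `p` values) and `v` (the remaining `k - p` values). -/
def glue {n : ℕ} (k p : ℕ) (u : Fin p → Fin n) (v : Fin (k - p) → Fin n) : Fin k → Fin n :=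
  fun i => if h : (i : ℕ) < p then u ⟨i, h⟩ else v ⟨(i : ℕ) - p, by have := i.2; omega⟩

theorem glue_strictMono {n : ℕ} (k p : ℕ) (u : Fin p → Fin n) (v : Fin (k - p) → Fin n)
    (hu : StrictMono u) (hv : StrictMono v) (huv : ∀ a b, u a < v b) :
    StrictMono (glue k p u v) := by
  intro i j hij
  have hij' : (i : ℕ) < (j : ℕ) := hij
  unfold glue
  by_cases h1 : (i : ℕ) < p
  · by_cases h2 : (j : ℕ) < p
    · rw [dif_pos h1, dif_pos h2]
      exact hu (Fin.mk_lt_mk.mpr hij')
    · rw [dif_pos h1, dif_neg h2]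
      exact huv _ _
  · have h2 : ¬ (j : ℕ) < p := by omega
    rw [dif_neg h1, dif_neg h2]
    exact hv (Fin.mk_lt_mk.mpr (by omega))

theorem glue_left {n : ℕ} (k p : ℕ) (u : Fin p → Fin n) (v : Fin (k - p) → Fin n)
    (i : Fin p) (hi : (i : ℕ) < k) : glue k p u v ⟨i, hi⟩ = u i := by
  unfold glue
  rw [dif_pos i.2]

theorem glue_right {n : ℕ} (k p : ℕ) (u : Fin p → Fin n) (v : Fin (k - p) → Fin n)
    (i : Fin (k - p)) (hi : p + (i : ℕ) < k) : glue k p u v ⟨p + i, hi⟩ = v i := by
  unfold glue
  rw [dif_neg (by simp)]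
  congr 1
  ext
  simp

/-- A finite set of ordered copies has at most `copies` elements. -/
theorem card_le_copies {k n : ℕ} (H : Fin k → Fin k → Bool) (A : Fin n → Fin n → Bool)
    (F : Finset ((Fin k → Fin n) × (Fin k → Fin n))) (hF : ∀ x ∈ F, IsCopy H A x.1 x.2) :
    F.card ≤ copies H A := by
  unfold copies
  rw [← Set.ncard_coe_finset F]
  exact Set.ncard_le_ncard (fun x hx => hF x (Finset.mem_coe.mp hx)) (Set.toFinite _)

/-- Few functions with a prescribed coincidence. -/
theorem card_coincide {a n : ℕ} (i j : Fin a) (hij : i ≠ j) :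
    (Finset.univ.filter (fun f : Fin a → Fin n => f i = f j)).card * n ≤ n ^ a := by
  classical
  have h := Finset.card_le_card_of_injOn
    (s := (Finset.univ.filter (fun f : Fin a → Fin n => f i = f j)) ×ˢ (Finset.univ : Finset (Fin n)))
    (t := (Finset.univ : Finset (Fin a → Fin n)))
    (fun x : (Fin a → Fin n) × Fin n => Function.update x.1 i x.2)
    (fun x _ => Finset.mem_univ _)
    (by
      rintro ⟨f, v⟩ hx ⟨f', v'⟩ hx' heq
      have hf : f i = f j := by
        have := (Finset.mem_product.mp (Finset.mem_coe.mp hx)).1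
        simpa using this
      have hf' : f' i = f' j := by
        have := (Finset.mem_product.mp (Finset.mem_coe.mp hx')).1
        simpa using this
      have heq' : Function.update f i v = Function.update f' i v' := heq
      have hv : v = v' := by
        have := congrFun heq' i
        simpa using this
      have hl : ∀ l, l ≠ i → f l = f' l := by
        intro l hl
        have := congrFun heq' l
        rwa [Function.update_of_ne hl, Function.update_of_ne hl] at this
      have hff : f = f' := by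
        funext l
        by_cases hl' : l = i
        · rw [hl', hf, hf']
          exact hl j (Ne.symm hij)
        · exact hl l hl'
      rw [hff, hv])
  rw [Finset.card_product, Finset.card_univ, Finset.card_univ, Fintype.card_fin, Fintype.card_fun,
    Fintype.card_fin, Fintype.card_fin] at h
  exact h

/-- Few non-injective functions. -/
theorem card_noninj (a n : ℕ) :
    (Finset.univ.filter (fun f : Fin a → Fin n => ¬ Function.Injective f)).card * n
      ≤ a ^ 2 * n ^ a := by
  classical
  have hsub : (Finset.univ.filter (fun f : Fin a → Fin n => ¬ Function.Injective f)) ⊆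
      ((Finset.univ : Finset (Fin a × Fin a)).filter (fun x => x.1 ≠ x.2)).biUnion
        (fun x => Finset.univ.filter (fun f : Fin a → Fin n => f x.1 = f x.2)) := by
    intro f hf
    have hf' : ¬ Function.Injective f := by simpa using hf
    unfold Function.Injective at hf'
    push Not at hf'
    obtain ⟨i, j, hfe, hne⟩ := hf'
    refine Finset.mem_biUnion.mpr ⟨(i, j), ?_, ?_⟩
    · simpa using hne
    · simpa using hfe
  have h1 := Finset.card_le_card hsub
  have h2 := Finset.card_biUnion_le
    (s := ((Finset.univ : Finset (Fin a × Fin a)).filter (fun x => x.1 ≠ x.2)))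
    (t := (fun x => Finset.univ.filter (fun f : Fin a → Fin n => f x.1 = f x.2)))
  calc (Finset.univ.filter (fun f : Fin a → Fin n => ¬ Function.Injective f)).card * n
      ≤ (∑ x ∈ ((Finset.univ : Finset (Fin a × Fin a)).filter (fun x => x.1 ≠ x.2)),
          (Finset.univ.filter (fun f : Fin a → Fin n => f x.1 = f x.2)).card) * n :=
        Nat.mul_le_mul_right n (h1.trans h2)
    _ = ∑ x ∈ ((Finset.univ : Finset (Fin a × Fin a)).filter (fun x => x.1 ≠ x.2)),
          (Finset.univ.filter (fun f : Fin a → Fin n => f x.1 = f x.2)).card * n :=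
        Finset.sum_mul _ _ _
    _ ≤ ∑ _x ∈ ((Finset.univ : Finset (Fin a × Fin a)).filter (fun x => x.1 ≠ x.2)), n ^ a := by
        apply Finset.sum_le_sum
        intro x hx
        exact card_coincide x.1 x.2 (by simpa using hx)
    _ = ((Finset.univ : Finset (Fin a × Fin a)).filter (fun x => x.1 ≠ x.2)).card * n ^ a := by
        rw [Finset.sum_const, smul_eq_mul]
    _ ≤ a ^ 2 * n ^ a := by
        apply Nat.mul_le_mul_right
        calc ((Finset.univ : Finset (Fin a × Fin a)).filter (fun x => x.1 ≠ x.2)).card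
            ≤ (Finset.univ : Finset (Fin a × Fin a)).card := Finset.card_filter_le _ _
          _ = a ^ 2 := by
            rw [Finset.card_univ, Fintype.card_prod, Fintype.card_fin]
            ring

/-- The tuples of row and column choices. -/
abbrev Tup (n k p q : ℕ) : Type :=
  (Fin p → Fin n) × (Fin (k - p) → Fin n) × (Fin q → Fin n) × (Fin (k - q) → Fin n)

/-- All four components are injective. -/
def Inj4 {n k p q : ℕ} (t : Tup n k p q) : Prop :=
  Function.Injective t.1 ∧ Function.Injective t.2.1 ∧ Function.Injective t.2.2.1 ∧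
    Function.Injective t.2.2.2

/-- The ordered copy built from a tuple. -/
noncomputable def toCopy {n : ℕ} (k p q : ℕ) (t : Tup n k p q) :
    (Fin k → Fin n) × (Fin k → Fin n) :=
  (glue k p (srt t.1) (srt t.2.1), glue k q (srt t.2.2.1) (srt t.2.2.2))

theorem isCopy_toCopy {n : ℕ} (H₀ : Fin 2 → Fin 2 → Bool) (A : Fin n → Fin n → Bool)
    (k p q : ℕ) (hp : 0 < p) (hpk : p < k) (hq : 0 < q) (hqk : q < k) (t : Tup n k p q)
    (hv : ∀ i j a b, Quad H₀ A (t.1 i) (t.2.1 j) (t.2.2.1 a) (t.2.2.2 b)) (hi : Inj4 t) :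
    IsCopy (blow H₀ k p q) A (toCopy k p q t).1 (toCopy k p q t).2 := by
  obtain ⟨h1, h2, h3, h4⟩ := hi
  have i0 : Fin p := ⟨0, hp⟩
  have j0 : Fin (k - p) := ⟨0, by omega⟩
  have a0 : Fin q := ⟨0, hq⟩
  have b0 : Fin (k - q) := ⟨0, by omega⟩
  refine ⟨glue_strictMono k p _ _ (srt_strictMono h1) (srt_strictMono h2) ?_,
    glue_strictMono k q _ _ (srt_strictMono h3) (srt_strictMono h4) ?_, ?_⟩
  · intro a b
    obtain ⟨a', ha'⟩ := srt_mem h1 a
    obtain ⟨b', hb'⟩ := srt_mem h2 b
    rw [ha', hb']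
    exact (hv a' b' a0 b0).1
  · intro a b
    obtain ⟨a', ha'⟩ := srt_mem h3 a
    obtain ⟨b', hb'⟩ := srt_mem h4 b
    rw [ha', hb']
    exact (hv i0 j0 a' b').2.1
  · intro i j
    show A (glue k p (srt t.1) (srt t.2.1) i) (glue k q (srt t.2.2.1) (srt t.2.2.2) j)
      = blow H₀ k p q i j
    unfold glue blow
    by_cases hi : (i : ℕ) < p
    · by_cases hj : (j : ℕ) < q
      · rw [dif_pos hi, dif_pos hj, if_pos hi, if_pos hj]
        obtain ⟨a', ha'⟩ := srt_mem h1 ⟨i, hi⟩
        obtain ⟨b', hb'⟩ := srt_mem h3 ⟨j, hj⟩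
        rw [ha', hb']
        exact (hv a' j0 b' b0).2.2.1
      · rw [dif_pos hi, dif_neg hj, if_pos hi, if_neg hj]
        obtain ⟨a', ha'⟩ := srt_mem h1 ⟨i, hi⟩
        obtain ⟨b', hb'⟩ := srt_mem h4 ⟨(j : ℕ) - q, by have := j.2; omega⟩
        rw [ha', hb']
        exact (hv a' j0 a0 b').2.2.2.1
    · by_cases hj : (j : ℕ) < q
      · rw [dif_neg hi, dif_pos hj, if_neg hi, if_pos hj]
        obtain ⟨a', ha'⟩ := srt_mem h2 ⟨(i : ℕ) - p, by have := i.2; omega⟩
        obtain ⟨b', hb'⟩ := srt_mem h3 ⟨j, hj⟩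
        rw [ha', hb']
        exact (hv i0 a' b' b0).2.2.2.2.1
      · rw [dif_neg hi, dif_neg hj, if_neg hi, if_neg hj]
        obtain ⟨a', ha'⟩ := srt_mem h2 ⟨(i : ℕ) - p, by have := i.2; omega⟩
        obtain ⟨b', hb'⟩ := srt_mem h4 ⟨(j : ℕ) - q, by have := j.2; omega⟩
        rw [ha', hb']
        exact (hv i0 a' a0 b').2.2.2.2.2

theorem mem_image_toCopy {n : ℕ} (k p q : ℕ) (hpk : p ≤ k) (hqk : q ≤ k) (t : Tup n k p q)
    (hi : Inj4 t) :
    (∀ i, t.1 i ∈ Finset.univ.image (toCopy k p q t).1) ∧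
    (∀ j, t.2.1 j ∈ Finset.univ.image (toCopy k p q t).1) ∧
    (∀ a, t.2.2.1 a ∈ Finset.univ.image (toCopy k p q t).2) ∧
    (∀ b, t.2.2.2 b ∈ Finset.univ.image (toCopy k p q t).2) := by
  obtain ⟨h1, h2, h3, h4⟩ := hi
  refine ⟨?_, ?_, ?_, ?_⟩
  · intro i
    obtain ⟨i', hi'⟩ := mem_srt h1 i
    rw [hi']
    exact Finset.mem_image.mpr ⟨⟨i', by have := i'.2; omega⟩, Finset.mem_univ _,
      glue_left k p _ _ i' _⟩
  · intro j
    obtain ⟨j', hj'⟩ := mem_srt h2 j
    rw [hj']
    exact Finset.mem_image.mpr ⟨⟨p + j', by have := j'.2; omega⟩, Finset.mem_univ _,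
      glue_right k p _ _ j' _⟩
  · intro a
    obtain ⟨a', ha'⟩ := mem_srt h3 a
    rw [ha']
    exact Finset.mem_image.mpr ⟨⟨a', by have := a'.2; omega⟩, Finset.mem_univ _,
      glue_left k q _ _ a' _⟩
  · intro b
    obtain ⟨b', hb'⟩ := mem_srt h4 b
    rw [hb']
    exact Finset.mem_image.mpr ⟨⟨q + b', by have := b'.2; omega⟩, Finset.mem_univ _,
      glue_right k q _ _ b' _⟩

open Classical in
/-- The injective valid tuples are at most `k ^ (2 k)` times the ordered copies. -/
theorem card_inj_le {n : ℕ} (H₀ : Fin 2 → Fin 2 → Bool) (A : Fin n → Fin n → Bool)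
    (k p q : ℕ) (hp : 0 < p) (hpk : p < k) (hq : 0 < q) (hqk : q < k) :
    (Finset.univ.filter (fun t : Tup n k p q =>
      (∀ i j a b, Quad H₀ A (t.1 i) (t.2.1 j) (t.2.2.1 a) (t.2.2.2 b)) ∧ Inj4 t)).card
      ≤ k ^ (2 * k) * copies (blow H₀ k p q) A := by
  set S := Finset.univ.filter (fun t : Tup n k p q =>
      (∀ i j a b, Quad H₀ A (t.1 i) (t.2.1 j) (t.2.2.1 a) (t.2.2.2 b)) ∧ Inj4 t) with hS
  have h1 := Finset.card_le_mul_card_image (f := toCopy k p q) S (k ^ (2 * k)) (by
    intro b _
    have hsub : S.filter (fun t => toCopy k p q t = b) ⊆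
        (Fintype.piFinset (fun _ : Fin p => Finset.univ.image b.1)) ×ˢ
        ((Fintype.piFinset (fun _ : Fin (k - p) => Finset.univ.image b.1)) ×ˢ
        ((Fintype.piFinset (fun _ : Fin q => Finset.univ.image b.2)) ×ˢ
        (Fintype.piFinset (fun _ : Fin (k - q) => Finset.univ.image b.2)))) := by
      intro t ht
      obtain ⟨htS, htb⟩ := Finset.mem_filter.mp ht
      have hinj := (Finset.mem_filter.mp htS).2.2
      obtain ⟨m1, m2, m3, m4⟩ := mem_image_toCopy k p q hpk.le hqk.le t hinj
      rw [htb] at m1 m2 m3 m4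
      simp only [Finset.mem_product, Fintype.mem_piFinset]
      exact ⟨m1, m2, m3, m4⟩
    have hb1 : (Finset.univ.image b.1).card ≤ k :=
      Finset.card_image_le.trans (by rw [Finset.card_univ, Fintype.card_fin])
    have hb2 : (Finset.univ.image b.2).card ≤ k :=
      Finset.card_image_le.trans (by rw [Finset.card_univ, Fintype.card_fin])
    calc (S.filter (fun t => toCopy k p q t = b)).card
        ≤ _ := Finset.card_le_card hsub
      _ = (Finset.univ.image b.1).card ^ p * ((Finset.univ.image b.1).card ^ (k - p) *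
          ((Finset.univ.image b.2).card ^ q * (Finset.univ.image b.2).card ^ (k - q))) := by
          rw [Finset.card_product, Finset.card_product, Finset.card_product,
            Fintype.card_piFinset_const, Fintype.card_piFinset_const,
            Fintype.card_piFinset_const, Fintype.card_piFinset_const]
      _ ≤ k ^ p * (k ^ (k - p) * (k ^ q * k ^ (k - q))) :=
          Nat.mul_le_mul (Nat.pow_le_pow_left hb1 _) (Nat.mul_le_mul (Nat.pow_le_pow_left hb1 _)
            (Nat.mul_le_mul (Nat.pow_le_pow_left hb2 _) (Nat.pow_le_pow_left hb2 _)))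
      _ = k ^ (2 * k) := by
          rw [← pow_add, ← pow_add, ← pow_add]
          congr 1
          omega)
  calc S.card ≤ k ^ (2 * k) * (S.image (toCopy k p q)).card := h1
    _ ≤ k ^ (2 * k) * copies (blow H₀ k p q) A := by
        apply Nat.mul_le_mul_left
        apply card_le_copies
        intro x hx
        obtain ⟨t, ht, rfl⟩ := Finset.mem_image.mp hx
        have ht' := (Finset.mem_filter.mp ht).2
        exact isCopy_toCopy H₀ A k p q hp hpk hq hqk t ht'.1 ht'.2

theorem card_filter_fst {α β : Type*} [Fintype α] [Fintype β] (P : α → Prop) [DecidablePred P] :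
    (Finset.univ.filter (fun t : α × β => P t.1)).card
      = (Finset.univ.filter P).card * Fintype.card β := by
  rw [← Finset.univ_product_univ, Finset.filter_product_left, Finset.card_product,
    Finset.card_univ]

theorem card_filter_snd {α β : Type*} [Fintype α] [Fintype β] (P : β → Prop) [DecidablePred P] :
    (Finset.univ.filter (fun t : α × β => P t.2)).card
      = Fintype.card α * (Finset.univ.filter P).card := by
  rw [← Finset.univ_product_univ, Finset.filter_product_right, Finset.card_product,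
    Finset.card_univ]

theorem sq_add_sq_le (k p : ℕ) (h : p ≤ k) : p ^ 2 + (k - p) ^ 2 ≤ k ^ 2 := by
  obtain ⟨r, rfl⟩ : ∃ r, k = p + r := ⟨k - p, by omega⟩
  rw [Nat.add_sub_cancel_left]
  nlinarith [Nat.zero_le (p * r)]

theorem card_fun_fin (a n : ℕ) : Fintype.card (Fin a → Fin n) = n ^ a := by
  rw [Fintype.card_fun, Fintype.card_fin, Fintype.card_fin]

open Classical in
/-- Few tuples with a non-injective component. -/
theorem card_bad {n : ℕ} (k p q : ℕ) (hpk : p ≤ k) (hqk : q ≤ k) :
    (Finset.univ.filter (fun t : Tup n k p q => ¬ Inj4 t)).card * n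
      ≤ 2 * k ^ 2 * n ^ (2 * k) := by
  set N1 := (Finset.univ.filter (fun f : Fin p → Fin n => ¬ Function.Injective f)).card with hN1
  set N2 := (Finset.univ.filter (fun f : Fin (k - p) → Fin n => ¬ Function.Injective f)).card
    with hN2
  set N3 := (Finset.univ.filter (fun f : Fin q → Fin n => ¬ Function.Injective f)).card with hN3
  set N4 := (Finset.univ.filter (fun f : Fin (k - q) → Fin n => ¬ Function.Injective f)).card
    with hN4
  have hB1 : (Finset.univ.filter (fun t : Tup n k p q => ¬ Function.Injective t.1)).card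
      = N1 * (n ^ (k - p) * (n ^ q * n ^ (k - q))) := by
    rw [card_filter_fst (α := Fin p → Fin n)
      (β := (Fin (k - p) → Fin n) × (Fin q → Fin n) × (Fin (k - q) → Fin n))
      (fun f => ¬ Function.Injective f), Fintype.card_prod, Fintype.card_prod, card_fun_fin,
      card_fun_fin, card_fun_fin]
  have hB2 : (Finset.univ.filter (fun t : Tup n k p q => ¬ Function.Injective t.2.1)).card
      = n ^ p * (N2 * (n ^ q * n ^ (k - q))) := by
    rw [card_filter_snd (α := Fin p → Fin n)
      (β := (Fin (k - p) → Fin n) × (Fin q → Fin n) × (Fin (k - q) → Fin n))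
      (fun u => ¬ Function.Injective u.1),
      card_filter_fst (α := Fin (k - p) → Fin n) (β := (Fin q → Fin n) × (Fin (k - q) → Fin n))
      (fun f => ¬ Function.Injective f), Fintype.card_prod, card_fun_fin,
      card_fun_fin, card_fun_fin]
  have hB3 : (Finset.univ.filter (fun t : Tup n k p q => ¬ Function.Injective t.2.2.1)).card
      = n ^ p * (n ^ (k - p) * (N3 * n ^ (k - q))) := by
    rw [card_filter_snd (α := Fin p → Fin n)
      (β := (Fin (k - p) → Fin n) × (Fin q → Fin n) × (Fin (k - q) → Fin n))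
      (fun u => ¬ Function.Injective u.2.1),
      card_filter_snd (α := Fin (k - p) → Fin n) (β := (Fin q → Fin n) × (Fin (k - q) → Fin n))
      (fun u => ¬ Function.Injective u.1),
      card_filter_fst (α := Fin q → Fin n) (β := (Fin (k - q) → Fin n))
      (fun f => ¬ Function.Injective f), card_fun_fin, card_fun_fin, card_fun_fin]
  have hB4 : (Finset.univ.filter (fun t : Tup n k p q => ¬ Function.Injective t.2.2.2)).card
      = n ^ p * (n ^ (k - p) * (n ^ q * N4)) := by
    rw [card_filter_snd (α := Fin p → Fin n)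
      (β := (Fin (k - p) → Fin n) × (Fin q → Fin n) × (Fin (k - q) → Fin n))
      (fun u => ¬ Function.Injective u.2.2),
      card_filter_snd (α := Fin (k - p) → Fin n) (β := (Fin q → Fin n) × (Fin (k - q) → Fin n))
      (fun u => ¬ Function.Injective u.2),
      card_filter_snd (α := Fin q → Fin n) (β := (Fin (k - q) → Fin n))
      (fun f => ¬ Function.Injective f), card_fun_fin, card_fun_fin, card_fun_fin]
  have hsub : (Finset.univ.filter (fun t : Tup n k p q => ¬ Inj4 t)) ⊆
      (Finset.univ.filter (fun t : Tup n k p q => ¬ Function.Injective t.1)) ∪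
      ((Finset.univ.filter (fun t : Tup n k p q => ¬ Function.Injective t.2.1)) ∪
      ((Finset.univ.filter (fun t : Tup n k p q => ¬ Function.Injective t.2.2.1)) ∪
      (Finset.univ.filter (fun t : Tup n k p q => ¬ Function.Injective t.2.2.2)))) := by
    intro t ht
    have ht' : ¬ Inj4 t := (Finset.mem_filter.mp ht).2
    simp only [Finset.mem_union, Finset.mem_filter, Finset.mem_univ, true_and]
    by_contra hcon
    push Not at hcon
    exact ht' ⟨hcon.1, hcon.2.1, hcon.2.2.1, hcon.2.2.2⟩
  have hcard : (Finset.univ.filter (fun t : Tup n k p q => ¬ Inj4 t)).card ≤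
      N1 * (n ^ (k - p) * (n ^ q * n ^ (k - q))) + (n ^ p * (N2 * (n ^ q * n ^ (k - q))) +
      (n ^ p * (n ^ (k - p) * (N3 * n ^ (k - q))) + n ^ p * (n ^ (k - p) * (n ^ q * N4)))) := by
    rw [← hB1, ← hB2, ← hB3, ← hB4]
    refine (Finset.card_le_card hsub).trans ?_
    refine (Finset.card_union_le _ _).trans (Nat.add_le_add_left ?_ _)
    refine (Finset.card_union_le _ _).trans (Nat.add_le_add_left ?_ _)
    exact Finset.card_union_le _ _
  have g1 : N1 * n ≤ p ^ 2 * n ^ p := card_noninj p n
  have g2 : N2 * n ≤ (k - p) ^ 2 * n ^ (k - p) := card_noninj (k - p) n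
  have g3 : N3 * n ≤ q ^ 2 * n ^ q := card_noninj q n
  have g4 : N4 * n ≤ (k - q) ^ 2 * n ^ (k - q) := card_noninj (k - q) n
  have hX : n ^ p * (n ^ (k - p) * (n ^ q * n ^ (k - q))) = n ^ (2 * k) := by
    rw [← pow_add, ← pow_add, ← pow_add]
    congr 1
    omega
  set X1 := n ^ p with hX1
  set X2 := n ^ (k - p) with hX2
  set X3 := n ^ q with hX3
  set X4 := n ^ (k - q) with hX4
  have s1 := sq_add_sq_le k p hpk
  have s2 := sq_add_sq_le k q hqk
  calc (Finset.univ.filter (fun t : Tup n k p q => ¬ Inj4 t)).card * n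
      ≤ (N1 * (X2 * (X3 * X4)) + (X1 * (N2 * (X3 * X4)) +
          (X1 * (X2 * (N3 * X4)) + X1 * (X2 * (X3 * N4))))) * n := Nat.mul_le_mul_right n hcard
    _ = (N1 * n) * (X2 * (X3 * X4)) + (X1 * ((N2 * n) * (X3 * X4)) +
          (X1 * (X2 * ((N3 * n) * X4)) + X1 * (X2 * (X3 * (N4 * n))))) := by ring
    _ ≤ (p ^ 2 * X1) * (X2 * (X3 * X4)) + (X1 * (((k - p) ^ 2 * X2) * (X3 * X4)) +
          (X1 * (X2 * ((q ^ 2 * X3) * X4)) + X1 * (X2 * (X3 * ((k - q) ^ 2 * X4))))) := by
        gcongr
    _ = (p ^ 2 + (k - p) ^ 2 + (q ^ 2 + (k - q) ^ 2)) * (X1 * (X2 * (X3 * X4))) := by ring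
    _ ≤ (k ^ 2 + k ^ 2) * (X1 * (X2 * (X3 * X4))) :=
        Nat.mul_le_mul_right _ (Nat.add_le_add s1 s2)
    _ = 2 * k ^ 2 * n ^ (2 * k) := by rw [hX]; ring

end Vale.Agent.Lib.P037B
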