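import Mathlib
import Vale.Agent.Lib.P037B.Defs
import Vale.Agent.Lib.P037B.Blow

/-!
# The quadruple form of a polynomial removal bound for a 2 x 2 pattern

`QRem H0 c C` is exactly the hypothesis `h₀` of `blowup_removal`.  `qrem_mono` weakens the
constants, and `qrem_transfer` moves the bound along a symmetry of matrices.
-/

namespace Vale.Agent.Lib.P037B

/-- `QRem H0 c C`: for every `n`, every `n x n` binary matrix `A` and every `0 < ε ≤ 1`, if every
matrix `B` with no quadruple copy of the 2 x 2 pattern `H0` differs from `A` in at least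
`ε n^2` entries, then `A` has at least `c ε^C n^4` quadruple copies of `H0`. -/
def QRem (H0 : Fin 2 → Fin 2 → Bool) (c : ℝ) (C : ℕ) : Prop :=
  ∀ (n : ℕ) (A : Fin n → Fin n → Bool) (ε : ℝ), 0 < ε → ε ≤ 1 →
    (∀ B : Fin n → Fin n → Bool, (∀ r1 r2 c1 c2, ¬ Quad H0 B r1 r2 c1 c2) →
      ε * (n : ℝ) ^ 2 ≤ (entryDiff A B : ℝ)) →
    c * ε ^ C * (n : ℝ) ^ 4 ≤ (qcount H0 A : ℝ)

/-- A removal bound stays valid with a smaller positive constant and a larger exponent. -/
theorem qrem_mono {H0 : Fin 2 → Fin 2 → Bool} {c c' : ℝ} {C C' : ℕ} (h : QRem H0 c C)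
    (hc' : 0 < c') (hcc : c' ≤ c) (hC : C ≤ C') : QRem H0 c' C' := by
  intro n A ε hε hε1 hfar
  have h1 := h n A ε hε hε1 hfar
  have h2 : ε ^ C' ≤ ε ^ C := pow_le_pow_of_le_one hε.le hε1 hC
  have h3 : c' * ε ^ C' ≤ c * ε ^ C :=
    mul_le_mul hcc h2 (by positivity) (le_trans hc'.le hcc)
  calc c' * ε ^ C' * (n : ℝ) ^ 4 ≤ c * ε ^ C * (n : ℝ) ^ 4 :=
        mul_le_mul_of_nonneg_right h3 (by positivity)
    _ ≤ (qcount H0 A : ℝ) := h1

/-- Transfer of a removal bound along an involution `T` of matrices that preserves the number of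
differing entries, maps `H0`-free matrices to `H1`-free matrices and satisfies
`qcount H1 A = qcount H0 (T A)`. -/
theorem qrem_transfer {H0 H1 : Fin 2 → Fin 2 → Bool} {c : ℝ} {C : ℕ}
    (T : ∀ n : ℕ, (Fin n → Fin n → Bool) → (Fin n → Fin n → Bool))
    (hTT : ∀ (n : ℕ) (A : Fin n → Fin n → Bool), T n (T n A) = A)
    (hdiff : ∀ (n : ℕ) (A B : Fin n → Fin n → Bool), entryDiff (T n A) (T n B) = entryDiff A B)
    (hcount : ∀ (n : ℕ) (A : Fin n → Fin n → Bool), qcount H1 A = qcount H0 (T n A))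
    (hfree : ∀ (n : ℕ) (B : Fin n → Fin n → Bool), (∀ r1 r2 c1 c2, ¬ Quad H0 B r1 r2 c1 c2) →
      ∀ r1 r2 c1 c2, ¬ Quad H1 (T n B) r1 r2 c1 c2)
    (h : QRem H0 c C) : QRem H1 c C := by
  intro n A ε hε hε1 hfar
  rw [hcount n A]
  apply h n (T n A) ε hε hε1
  intro B hB
  have h1 := hfar (T n B) (hfree n B hB)
  have h2 : entryDiff (T n A) B = entryDiff A (T n B) := by
    have h3 := hdiff n A (T n B)
    rw [hTT] at h3
    exact h3
  rw [h2]
  exact h1

end Vale.Agent.Lib.P037B
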