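import Mathlib
import Vale.Agent.Lib.P037B.QRem

/-!
# From the ten mixed 2 x 2 patterns and the equal-row patterns to all sixteen

A 2 x 2 binary pattern either has two equal rows, or two equal columns, or it has two distinct
rows and two distinct columns.  This file assembles a removal bound for every 2 x 2 pattern from
bounds for these three kinds.
-/

namespace Vale.Agent.Lib.P037B

/-- Patterns with two equal rows: the constant patterns and `[[x, !x], [x, !x]]`. -/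
theorem rows_eq_base
    (hones : ∃ c : ℝ, 0 < c ∧ ∃ C : ℕ, C ≤ 46 ∧ QRem (fun _ _ => true) c C)
    (hrowsEq : ∀ x : Bool, ∃ c : ℝ, 0 < c ∧ ∃ C : ℕ, C ≤ 46 ∧
      QRem (fun _ j => if j = 0 then x else !x) c C)
    (hcompl : ∀ (H0 : Fin 2 → Fin 2 → Bool) (c : ℝ) (C : ℕ), QRem H0 c C →
      QRem (fun i j => !(H0 i j)) c C)
    (H0 : Fin 2 → Fin 2 → Bool) (h : H0 0 = H0 1) : ∃ c : ℝ, 0 < c ∧ QRem H0 c 46 := by
  have hrow : ∀ i : Fin 2, H0 i = H0 0 := by
    intro i
    fin_cases i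
    · rfl
    · exact h.symm
  obtain ⟨x, hx⟩ : ∃ x, H0 0 0 = x := ⟨_, rfl⟩
  obtain ⟨y, hy⟩ : ∃ y, H0 0 1 = y := ⟨_, rfl⟩
  have hH : H0 = fun _ j => if j = 0 then x else y := by
    funext i j
    rw [hrow i]
    fin_cases j
    · simpa using hx
    · simpa using hy
  rw [hH]
  obtain ⟨c1, hc1, C1, hC1, hq1⟩ := hones
  have eT : (fun (_ : Fin 2) (j : Fin 2) => if j = 0 then true else true)
      = fun _ _ => true := by
    funext i j; simp
  have eF : (fun (_ : Fin 2) (j : Fin 2) => if j = 0 then false else false)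
      = fun i j => !((fun (_ : Fin 2) (_ : Fin 2) => true) i j) := by
    funext i j; simp
  cases x <;> cases y
  · -- all zeros
    refine ⟨c1, hc1, ?_⟩
    rw [eF]
    exact qrem_mono (hcompl _ c1 C1 hq1) hc1 le_rfl hC1
  · -- [[0,1],[0,1]]
    obtain ⟨c, hc, C, hC, hq⟩ := hrowsEq false
    exact ⟨c, hc, qrem_mono hq hc le_rfl hC⟩
  · -- [[1,0],[1,0]]
    obtain ⟨c, hc, C, hC, hq⟩ := hrowsEq true
    exact ⟨c, hc, qrem_mono hq hc le_rfl hC⟩
  · -- all ones
    refine ⟨c1, hc1, ?_⟩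
    rw [eT]
    exact qrem_mono hq1 hc1 le_rfl hC1

/-- A removal bound with exponent 46 for every 2 x 2 binary pattern, from bounds for the ten
patterns with distinct rows and distinct columns, the all-ones pattern and the patterns
`[[x, !x], [x, !x]]`, and the complement and transpose transfers. -/
theorem all_base
    (hten : ∀ H0 : Fin 2 → Fin 2 → Bool, H0 0 ≠ H0 1 →
      (fun i => H0 i 0) ≠ (fun i => H0 i 1) → ∃ c : ℝ, 0 < c ∧ QRem H0 c 46)
    (hones : ∃ c : ℝ, 0 < c ∧ ∃ C : ℕ, C ≤ 46 ∧ QRem (fun _ _ => true) c C)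
    (hrowsEq : ∀ x : Bool, ∃ c : ℝ, 0 < c ∧ ∃ C : ℕ, C ≤ 46 ∧
      QRem (fun _ j => if j = 0 then x else !x) c C)
    (hcompl : ∀ (H0 : Fin 2 → Fin 2 → Bool) (c : ℝ) (C : ℕ), QRem H0 c C →
      QRem (fun i j => !(H0 i j)) c C)
    (htr : ∀ (H0 : Fin 2 → Fin 2 → Bool) (c : ℝ) (C : ℕ), QRem H0 c C →
      QRem (fun i j => H0 j i) c C)
    (H0 : Fin 2 → Fin 2 → Bool) : ∃ c : ℝ, 0 < c ∧ QRem H0 c 46 := by
  by_cases h1 : H0 0 = H0 1
  · exact rows_eq_base hones hrowsEq hcompl H0 h1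
  · by_cases h2 : (fun i => H0 i 0) = (fun i => H0 i 1)
    · have h2' : (fun i j => H0 j i) 0 = (fun i j => H0 j i) 1 := h2
      obtain ⟨c, hc, hq⟩ := rows_eq_base hones hrowsEq hcompl (fun i j => H0 j i) h2'
      exact ⟨c, hc, htr _ c 46 hq⟩
    · exact hten H0 h1 h2

end Vale.Agent.Lib.P037B
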