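import Mathlib
import Vale.Agent.Lib.P037B.Defs
import Vale.Agent.Lib.P037B.Super
import Vale.Agent.Lib.P037B.Blow

/-!
# Polynomial removal is inherited by blow-ups of 2 x 2 patterns
-/

namespace Vale.Agent.Lib.P037B

open Finset

/-- If the polynomial removal bound holds for the 2 x 2 pattern `H₀` (copies counted as
quadruples) with constants `c₀`, `C₀`, then it holds for every blow-up of `H₀`. -/
theorem blowup_removal (H₀ : Fin 2 → Fin 2 → Bool) (c₀ : ℝ) (hc₀ : 0 < c₀) (C₀ : ℕ)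
    (h₀ : ∀ (n : ℕ) (A : Fin n → Fin n → Bool) (ε : ℝ), 0 < ε → ε ≤ 1 →
      (∀ B : Fin n → Fin n → Bool, (∀ r1 r2 c1 c2, ¬ Quad H₀ B r1 r2 c1 c2) →
        ε * (n : ℝ) ^ 2 ≤ (entryDiff A B : ℝ)) →
      c₀ * ε ^ C₀ * (n : ℝ) ^ 4 ≤ (qcount H₀ A : ℝ))
    (k p q : ℕ) (hp : 0 < p) (hpk : p < k) (hq : 0 < q) (hqk : q < k) :
    ∃ c : ℝ, 0 < c ∧ ∀ (n : ℕ) (A : Fin n → Fin n → Bool) (ε : ℝ), 0 < ε → ε ≤ 1 →
      (∀ B : Fin n → Fin n → Bool, Free (blow H₀ k p q) B →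
        ε * (n : ℝ) ^ 2 ≤ (entryDiff A B : ℝ)) →
      c * ε ^ (C₀ * (p * (k - p) * q * (k - q)) * (2 * k)) * (n : ℝ) ^ (2 * k)
        ≤ (copies (blow H₀ k p q) A : ℝ) := by
  classical
  set M := p * (k - p) * q * (k - q) with hM
  set c₁ := min c₀ 1 with hc₁
  have hc₁pos : 0 < c₁ := lt_min hc₀ one_pos
  have hc₁le : c₁ ≤ 1 := min_le_right _ _
  have hc₁le0 : c₁ ≤ c₀ := min_le_left _ _
  have hkpos : 0 < k := by omega
  have hk1 : (1 : ℝ) ≤ (k : ℝ) := by exact_mod_cast hkpos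
  have hK : (1 : ℝ) ≤ (k : ℝ) ^ (2 * k) := one_le_pow₀ hk1
  have hk2 : (k : ℝ) ^ 2 ≤ (k : ℝ) ^ (2 * k) := pow_le_pow_right₀ hk1 (by omega)
  refine ⟨(c₁ ^ M / (4 * (k : ℝ) ^ (2 * k))) ^ (2 * k), by positivity, ?_⟩
  intro n A ε hε hε1 hfar
  rcases Nat.eq_zero_or_pos n with hn0 | hn
  · subst hn0
    have h0 : ((0 : ℕ) : ℝ) ^ (2 * k) = 0 := by
      rw [Nat.cast_zero]
      exact zero_pow (by omega)
    rw [h0, mul_zero]
    exact Nat.cast_nonneg _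
  have hnr : (0 : ℝ) < (n : ℝ) := by exact_mod_cast hn
  -- the base pattern
  have hq0 := h₀ n A ε hε hε1 (fun B hB => hfar B (free_of_qfree H₀ k p q hp hpk hq hqk B hB))
  -- supersaturation
  have hsup := four_count hn (Quad H₀ A) p (k - p) q (k - q) hp (by omega) hq (by omega)
  have hexp : p + (k - p) + q + (k - q) = 2 * k := by omega
  rw [hexp] at hsup
  set x := (c₁ * ε ^ C₀) ^ M with hx
  have hxpos : 0 < x := by positivity
  have hbase_le1 : c₁ * ε ^ C₀ ≤ 1 := by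
    calc c₁ * ε ^ C₀ ≤ 1 * 1 :=
          mul_le_mul hc₁le (pow_le_one₀ hε.le hε1) (by positivity) (by norm_num)
      _ = 1 := by norm_num
  have hx1 : x ≤ 1 := pow_le_one₀ (by positivity) hbase_le1
  have hdens : c₁ * ε ^ C₀ ≤ (qcount H₀ A : ℝ) / (n : ℝ) ^ 4 := by
    rw [le_div_iff₀ (by positivity)]
    calc c₁ * ε ^ C₀ * (n : ℝ) ^ 4 ≤ c₀ * ε ^ C₀ * (n : ℝ) ^ 4 := by gcongr
      _ ≤ _ := hq0
  have hxle : x ≤ ((qcount H₀ A : ℝ) / (n : ℝ) ^ 4) ^ M :=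
    pow_le_pow_left₀ (by positivity) hdens M
  have hTge : x * (n : ℝ) ^ (2 * k) ≤
      (Set.ncard {t : Tup n k p q |
        ∀ i j a b, Quad H₀ A (t.1 i) (t.2.1 j) (t.2.2.1 a) (t.2.2.2 b)} : ℝ) := by
    have h := hxle.trans hsup
    rwa [le_div_iff₀ (by positivity)] at h
  rw [ncard_eq_card_filter] at hTge
  -- split the tuples
  have hsplit : (Finset.univ.filter (fun t : Tup n k p q =>
        ∀ i j a b, Quad H₀ A (t.1 i) (t.2.1 j) (t.2.2.1 a) (t.2.2.2 b))).card ≤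
      (Finset.univ.filter (fun t : Tup n k p q =>
        (∀ i j a b, Quad H₀ A (t.1 i) (t.2.1 j) (t.2.2.1 a) (t.2.2.2 b)) ∧ Inj4 t)).card +
      (Finset.univ.filter (fun t : Tup n k p q => ¬ Inj4 t)).card := by
    refine (Finset.card_le_card ?_).trans (Finset.card_union_le _ _)
    intro t ht
    have hv := (Finset.mem_filter.mp ht).2
    by_cases hi : Inj4 t
    · exact Finset.mem_union_left _ (Finset.mem_filter.mpr ⟨Finset.mem_univ _, hv, hi⟩)
    · exact Finset.mem_union_right _ (Finset.mem_filter.mpr ⟨Finset.mem_univ _, hi⟩)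
  have hinj := card_inj_le H₀ A k p q hp hpk hq hqk
  have hbad := card_bad (n := n) k p q hpk.le hqk.le
  set N := copies (blow H₀ k p q) A with hN
  have hnat : (Finset.univ.filter (fun t : Tup n k p q =>
        ∀ i j a b, Quad H₀ A (t.1 i) (t.2.1 j) (t.2.2.1 a) (t.2.2.2 b))).card * n ≤
      k ^ (2 * k) * N * n + 2 * k ^ 2 * n ^ (2 * k) := by
    calc _ ≤ ((Finset.univ.filter (fun t : Tup n k p q =>
        (∀ i j a b, Quad H₀ A (t.1 i) (t.2.1 j) (t.2.2.1 a) (t.2.2.2 b)) ∧ Inj4 t)).card +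
      (Finset.univ.filter (fun t : Tup n k p q => ¬ Inj4 t)).card) * n :=
          Nat.mul_le_mul_right n hsplit
      _ = (Finset.univ.filter (fun t : Tup n k p q =>
        (∀ i j a b, Quad H₀ A (t.1 i) (t.2.1 j) (t.2.2.1 a) (t.2.2.2 b)) ∧ Inj4 t)).card * n +
      (Finset.univ.filter (fun t : Tup n k p q => ¬ Inj4 t)).card * n := by ring
      _ ≤ k ^ (2 * k) * N * n + 2 * k ^ 2 * n ^ (2 * k) :=
          Nat.add_le_add (Nat.mul_le_mul_right n hinj) hbad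
  have hstar : x * (n : ℝ) ^ (2 * k) * n ≤
      (k : ℝ) ^ (2 * k) * N * n + 2 * (k : ℝ) ^ 2 * (n : ℝ) ^ (2 * k) := by
    have hcast : ((Finset.univ.filter (fun t : Tup n k p q =>
        ∀ i j a b, Quad H₀ A (t.1 i) (t.2.1 j) (t.2.2.1 a) (t.2.2.2 b))).card : ℝ) * n ≤
        (k : ℝ) ^ (2 * k) * N * n + 2 * (k : ℝ) ^ 2 * (n : ℝ) ^ (2 * k) := by
      exact_mod_cast hnat
    exact (mul_le_mul_of_nonneg_right hTge hnr.le).trans hcast
  -- the matrix is not free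
  have hnotfree : ¬ Free (blow H₀ k p q) A := by
    intro hfree
    have h1 := hfar A hfree
    have hd : entryDiff A A = 0 := by
      unfold entryDiff
      simp
    rw [hd, Nat.cast_zero] at h1
    have : 0 < ε * (n : ℝ) ^ 2 := by positivity
    linarith
  have hN1 : (1 : ℝ) ≤ (N : ℝ) := by
    unfold Free at hnotfree
    push Not at hnotfree
    obtain ⟨ρ, γ, hcopy⟩ := hnotfree
    have h1 := card_le_copies (blow H₀ k p q) A {(ρ, γ)} (by
      intro y hy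
      rw [Finset.mem_singleton.mp hy]
      exact hcopy)
    rw [Finset.card_singleton] at h1
    exact_mod_cast h1
  -- arithmetic
  set y := x / (4 * (k : ℝ) ^ (2 * k)) with hy
  have hy0 : 0 < y := by positivity
  have hy1 : y ≤ 1 := by
    rw [hy, div_le_one (by positivity)]
    linarith
  have hcy : (c₁ ^ M / (4 * (k : ℝ) ^ (2 * k))) ^ (2 * k) * ε ^ (C₀ * M * (2 * k))
      = y ^ (2 * k) := by
    rw [hy, hx, pow_mul ε (C₀ * M) (2 * k), ← mul_pow]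
    congr 1
    rw [mul_pow, ← pow_mul]
    ring
  rw [hcy]
  by_cases hyn : 1 ≤ y * n
  · have hx_n : 4 * (k : ℝ) ^ (2 * k) ≤ x * n := by
      have h1 : 1 ≤ x / (4 * (k : ℝ) ^ (2 * k)) * n := hyn
      rw [div_mul_eq_mul_div, le_div_iff₀ (by positivity)] at h1
      linarith
    have h2 : 2 * (k : ℝ) ^ 2 * (n : ℝ) ^ (2 * k) ≤ x * (n : ℝ) ^ (2 * k) * n / 2 := by
      have hnk : 0 ≤ (n : ℝ) ^ (2 * k) := by positivity
      have h1 : 2 * (k : ℝ) ^ 2 ≤ x * n / 2 := by linarith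
      calc 2 * (k : ℝ) ^ 2 * (n : ℝ) ^ (2 * k) ≤ (x * n / 2) * (n : ℝ) ^ (2 * k) :=
            mul_le_mul_of_nonneg_right h1 hnk
        _ = x * (n : ℝ) ^ (2 * k) * n / 2 := by ring
    have h3 : x * (n : ℝ) ^ (2 * k) * n ≤ 2 * ((k : ℝ) ^ (2 * k) * N) * n := by linarith
    have h4 : x * (n : ℝ) ^ (2 * k) ≤ 2 * ((k : ℝ) ^ (2 * k) * N) :=
      le_of_mul_le_mul_right h3 hnr
    calc y ^ (2 * k) * (n : ℝ) ^ (2 * k) ≤ y * (n : ℝ) ^ (2 * k) := by
          apply mul_le_mul_of_nonneg_right _ (by positivity)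
          exact pow_le_of_le_one hy0.le hy1 (by omega)
      _ = x * (n : ℝ) ^ (2 * k) / (4 * (k : ℝ) ^ (2 * k)) := by rw [hy]; ring
      _ ≤ 2 * ((k : ℝ) ^ (2 * k) * N) / (4 * (k : ℝ) ^ (2 * k)) := by gcongr
      _ = (N : ℝ) / 2 := by field_simp; ring
      _ ≤ (N : ℝ) := by linarith
  · push Not at hyn
    calc y ^ (2 * k) * (n : ℝ) ^ (2 * k) = (y * n) ^ (2 * k) := by rw [mul_pow]
      _ ≤ 1 := pow_le_one₀ (by positivity) hyn.le
      _ ≤ (N : ℝ) := hN1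

end Vale.Agent.Lib.P037B
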