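import Mathlib
import Vale.Agent.Lib.P037B.QRem
import Vale.Agent.Lib.P037B.Removal

/-!
# From a quadruple-form bound for a 2 x 2 pattern to the statement for the pattern and all its
square blow-ups
-/

namespace Vale.Agent.Lib.P037B

/-- The blow-up with `k = 2`, `p = q = 1` is the pattern itself. -/
theorem blow_two (H0 : Fin 2 → Fin 2 → Bool) : blow H0 2 1 1 = H0 := by
  funext i j
  fin_cases i <;> fin_cases j <;> rfl

/-- A quadruple-form removal bound with exponent 46 for the 2 x 2 pattern `H0` gives the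
polynomial removal bound for `H0` (exponent 184) and for every square blow-up of `H0`. -/
theorem master_of_base (H0 : Fin 2 → Fin 2 → Bool) (h : ∃ c : ℝ, 0 < c ∧ QRem H0 c 46) :
    (∃ c : ℝ, 0 < c ∧ ∀ (n : ℕ) (A : Fin n → Fin n → Bool) (ε : ℝ), 0 < ε → ε ≤ 1 →
      (∀ B : Fin n → Fin n → Bool, Free H0 B → ε * (n : ℝ) ^ 2 ≤ (entryDiff A B : ℝ)) →
      c * ε ^ 184 * (n : ℝ) ^ 4 ≤ (copies H0 A : ℝ)) ∧
    (∀ k p q : ℕ, 0 < p → p < k → 0 < q → q < k →
      ∃ c : ℝ, 0 < c ∧ ∀ (n : ℕ) (A : Fin n → Fin n → Bool) (ε : ℝ), 0 < ε → ε ≤ 1 →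
        (∀ B : Fin n → Fin n → Bool, Free (blow H0 k p q) B →
          ε * (n : ℝ) ^ 2 ≤ (entryDiff A B : ℝ)) →
        c * ε ^ (92 * k * (p * (k - p) * q * (k - q))) * (n : ℝ) ^ (2 * k)
          ≤ (copies (blow H0 k p q) A : ℝ)) := by
  obtain ⟨c0, hc0, hq⟩ := h
  have hblow : ∀ k p q : ℕ, 0 < p → p < k → 0 < q → q < k →
      ∃ c : ℝ, 0 < c ∧ ∀ (n : ℕ) (A : Fin n → Fin n → Bool) (ε : ℝ), 0 < ε → ε ≤ 1 →
        (∀ B : Fin n → Fin n → Bool, Free (blow H0 k p q) B →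
          ε * (n : ℝ) ^ 2 ≤ (entryDiff A B : ℝ)) →
        c * ε ^ (92 * k * (p * (k - p) * q * (k - q))) * (n : ℝ) ^ (2 * k)
          ≤ (copies (blow H0 k p q) A : ℝ) := by
    intro k p q hp hpk hq' hqk
    obtain ⟨c, hc, hb⟩ := blowup_removal H0 c0 hc0 46 hq k p q hp hpk hq' hqk
    refine ⟨c, hc, ?_⟩
    intro n A ε hε hε1 hfar
    have h1 := hb n A ε hε hε1 hfar
    have e : 46 * (p * (k - p) * q * (k - q)) * (2 * k)
        = 92 * k * (p * (k - p) * q * (k - q)) := by ring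
    rw [e] at h1
    exact h1
  refine ⟨?_, hblow⟩
  obtain ⟨c, hc, hb⟩ := hblow 2 1 1 (by norm_num) (by norm_num) (by norm_num) (by norm_num)
  refine ⟨c, hc, ?_⟩
  intro n A ε hε hε1 hfar
  have h1 := hb n A ε hε hε1 (by rw [blow_two]; exact hfar)
  rw [blow_two] at h1
  have e1 : 92 * 2 * (1 * (2 - 1) * 1 * (2 - 1)) = 184 := by norm_num
  have e2 : 2 * 2 = 4 := by norm_num
  rw [e1, e2] at h1
  exact h1

end Vale.Agent.Lib.P037B
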