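import Mathlib
import Vale.Agent.Lib.P037B.QRem

/-!
# A polynomial removal bound for the all-ones 2 x 2 pattern

The matrix with no one at all has no quadruple copy of the all-ones pattern, so a matrix that is
`ε`-far from being free has at least `ε n^2` ones; two applications of the Cauchy-Schwarz
inequality then give at least `ε^4 n^4` quadruples `(r1, r2, c1, c2)` (no order, repetitions
allowed) with all four entries one, and at most `2 n^3` of them are degenerate.
-/

namespace Vale.Agent.Lib.P037B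

open Finset

/-- Two applications of the Cauchy-Schwarz inequality: the fourth power of the sum of all entries
is at most `n^4` times the sum over pairs of rows of the squared inner products. -/
theorem sum_pow_four_le {n : ℕ} (a : Fin n → Fin n → ℝ) :
    (∑ r, ∑ c, a r c) ^ 4 ≤ (n : ℝ) ^ 4 * ∑ r1, ∑ r2, (∑ c, a r1 c * a r2 c) ^ 2 := by
  have hx : ∑ r, ∑ c, a r c = ∑ c, ∑ r, a r c := Finset.sum_comm
  have h1 : (∑ c, ∑ r, a r c) ^ 2 ≤ (n : ℝ) * ∑ c, (∑ r, a r c) ^ 2 := by
    have h := sq_sum_le_card_mul_sum_sq (s := (Finset.univ : Finset (Fin n)))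
      (f := fun c => ∑ r, a r c)
    simpa using h
  have hD : ∑ r1, ∑ r2, ∑ c, a r1 c * a r2 c = ∑ c, (∑ r, a r c) ^ 2 := by
    calc ∑ r1, ∑ r2, ∑ c, a r1 c * a r2 c = ∑ r1, ∑ c, ∑ r2, a r1 c * a r2 c := by
          apply Finset.sum_congr rfl
          intro r1 _
          exact Finset.sum_comm
      _ = ∑ c, ∑ r1, ∑ r2, a r1 c * a r2 c := Finset.sum_comm
      _ = ∑ c, (∑ r, a r c) ^ 2 := by
          apply Finset.sum_congr rfl
          intro c _
          rw [sq, Finset.sum_mul_sum]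
  have h2 : (∑ r1, ∑ r2, ∑ c, a r1 c * a r2 c) ^ 2 ≤
      (n : ℝ) ^ 2 * ∑ r1, ∑ r2, (∑ c, a r1 c * a r2 c) ^ 2 := by
    have h := sq_sum_le_card_mul_sum_sq (s := (Finset.univ : Finset (Fin n × Fin n)))
      (f := fun p => ∑ c, a p.1 c * a p.2 c)
    rw [Fintype.sum_prod_type, Fintype.sum_prod_type] at h
    simp only [Finset.card_univ, Fintype.card_prod, Fintype.card_fin] at h
    have e : ((n * n : ℕ) : ℝ) = (n : ℝ) ^ 2 := by push_cast; ring
    rw [e] at h
    exact h
  rw [hx]
  rw [hD] at h2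
  calc (∑ c, ∑ r, a r c) ^ 4 = ((∑ c, ∑ r, a r c) ^ 2) ^ 2 := by ring
    _ ≤ ((n : ℝ) * ∑ c, (∑ r, a r c) ^ 2) ^ 2 := pow_le_pow_left₀ (sq_nonneg _) h1 2
    _ = (n : ℝ) ^ 2 * (∑ c, (∑ r, a r c) ^ 2) ^ 2 := by ring
    _ ≤ (n : ℝ) ^ 2 * ((n : ℝ) ^ 2 * ∑ r1, ∑ r2, (∑ c, a r1 c * a r2 c) ^ 2) :=
        mul_le_mul_of_nonneg_left h2 (sq_nonneg _)
    _ = (n : ℝ) ^ 4 * ∑ r1, ∑ r2, (∑ c, a r1 c * a r2 c) ^ 2 := by ring

/-- The quadruples `(r1, r2, c1, c2)`, in any order and with repetitions, whose four entries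
`A r1 c1`, `A r1 c2`, `A r2 c1`, `A r2 c2` are all one. -/
def onesQuads {n : ℕ} (A : Fin n → Fin n → Bool) : Finset (Fin n × Fin n × Fin n × Fin n) :=
  Finset.univ.filter (fun q => A q.1 q.2.2.1 = true ∧ A q.1 q.2.2.2 = true ∧
    A q.2.1 q.2.2.1 = true ∧ A q.2.1 q.2.2.2 = true)

/-- The number of ones of `A`, as a sum of reals. -/
theorem entryDiff_zero_eq {n : ℕ} (A : Fin n → Fin n → Bool) :
    (entryDiff A (fun _ _ => false) : ℝ) = ∑ r, ∑ c, (if A r c = true then (1 : ℝ) else 0) := by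
  unfold entryDiff
  rw [Finset.card_filter]
  push_cast
  rw [Fintype.sum_prod_type]
  apply Finset.sum_congr rfl
  intro r _
  apply Finset.sum_congr rfl
  intro c _
  cases A r c <;> simp

/-- The number of all-ones quadruples, as a sum of squares of inner products of rows. -/
theorem card_onesQuads_eq {n : ℕ} (A : Fin n → Fin n → Bool) :
    ((onesQuads A).card : ℝ) = ∑ r1, ∑ r2, (∑ c, (if A r1 c = true then (1 : ℝ) else 0) *
      (if A r2 c = true then (1 : ℝ) else 0)) ^ 2 := by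
  unfold onesQuads
  rw [Finset.card_filter]
  push_cast
  rw [Fintype.sum_prod_type]
  apply Finset.sum_congr rfl
  intro r1 _
  rw [Fintype.sum_prod_type]
  apply Finset.sum_congr rfl
  intro r2 _
  rw [Fintype.sum_prod_type, sq, Finset.sum_mul_sum]
  apply Finset.sum_congr rfl
  intro c1 _
  apply Finset.sum_congr rfl
  intro c2 _
  cases A r1 c1 <;> cases A r1 c2 <;> cases A r2 c1 <;> cases A r2 c2 <;> simp

/-- All but at most `2 n^3` of the all-ones quadruples come from an ordered copy by exchanging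
the two rows, the two columns, or both. -/
theorem card_onesQuads_le {n : ℕ} (A : Fin n → Fin n → Bool) :
    (onesQuads A).card ≤ 4 * qcount (fun _ _ => true) A + 2 * n ^ 3 := by
  classical
  set Qf : Finset (Fin n × Fin n × Fin n × Fin n) :=
    Finset.univ.filter (fun x => Quad (fun _ _ => true) A x.1 x.2.1 x.2.2.1 x.2.2.2) with hQf
  have hq : qcount (fun _ _ => true) A = Qf.card := by
    unfold qcount
    rw [← Set.ncard_coe_finset Qf]
    congr 1
    ext x
    simp [hQf]
  set E1 : Finset (Fin n × Fin n × Fin n × Fin n) :=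
    (Finset.univ : Finset (Fin n × Fin n × Fin n)).image (fun t => (t.1, t.1, t.2.1, t.2.2))
    with hE1
  set E2 : Finset (Fin n × Fin n × Fin n × Fin n) :=
    (Finset.univ : Finset (Fin n × Fin n × Fin n)).image (fun t => (t.1, t.2.1, t.2.2, t.2.2))
    with hE2
  have hcard3 : (Finset.univ : Finset (Fin n × Fin n × Fin n)).card = n ^ 3 := by
    simp only [Finset.card_univ, Fintype.card_prod, Fintype.card_fin]
    ring
  have hE1c : E1.card ≤ n ^ 3 := by
    rw [← hcard3]
    exact Finset.card_image_le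
  have hE2c : E2.card ≤ n ^ 3 := by
    rw [← hcard3]
    exact Finset.card_image_le
  set I1 : Finset (Fin n × Fin n × Fin n × Fin n) :=
    Qf.image (fun q => (q.2.1, q.1, q.2.2.1, q.2.2.2)) with hI1
  set I2 : Finset (Fin n × Fin n × Fin n × Fin n) :=
    Qf.image (fun q => (q.1, q.2.1, q.2.2.2, q.2.2.1)) with hI2
  set I3 : Finset (Fin n × Fin n × Fin n × Fin n) :=
    Qf.image (fun q => (q.2.1, q.1, q.2.2.2, q.2.2.1)) with hI3
  have hI1c : I1.card ≤ Qf.card := Finset.card_image_le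
  have hI2c : I2.card ≤ Qf.card := Finset.card_image_le
  have hI3c : I3.card ≤ Qf.card := Finset.card_image_le
  have hsub : onesQuads A ⊆ ((Qf ∪ I1) ∪ (I2 ∪ I3)) ∪ (E1 ∪ E2) := by
    rintro ⟨r1, r2, c1, c2⟩ hmem
    unfold onesQuads at hmem
    simp only [Finset.mem_filter, Finset.mem_univ, true_and] at hmem
    obtain ⟨h11, h12, h21, h22⟩ := hmem
    rcases lt_trichotomy r1 r2 with hr | hr | hr
    · rcases lt_trichotomy c1 c2 with hc | hc | hc
      · apply Finset.mem_union_left
        apply Finset.mem_union_left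
        apply Finset.mem_union_left
        rw [hQf]
        simp only [Finset.mem_filter, Finset.mem_univ, true_and]
        exact ⟨hr, hc, h11, h12, h21, h22⟩
      · apply Finset.mem_union_right
        apply Finset.mem_union_right
        rw [hE2]
        apply Finset.mem_image.mpr
        refine ⟨(r1, r2, c1), Finset.mem_univ _, ?_⟩
        rw [hc]
      · apply Finset.mem_union_left
        apply Finset.mem_union_right
        apply Finset.mem_union_left
        rw [hI2]
        apply Finset.mem_image.mpr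
        refine ⟨(r1, r2, c2, c1), ?_, rfl⟩
        rw [hQf]
        simp only [Finset.mem_filter, Finset.mem_univ, true_and]
        exact ⟨hr, hc, h12, h11, h22, h21⟩
    · apply Finset.mem_union_right
      apply Finset.mem_union_left
      rw [hE1]
      apply Finset.mem_image.mpr
      refine ⟨(r1, c1, c2), Finset.mem_univ _, ?_⟩
      rw [hr]
    · rcases lt_trichotomy c1 c2 with hc | hc | hc
      · apply Finset.mem_union_left
        apply Finset.mem_union_left
        apply Finset.mem_union_right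
        rw [hI1]
        apply Finset.mem_image.mpr
        refine ⟨(r2, r1, c1, c2), ?_, rfl⟩
        rw [hQf]
        simp only [Finset.mem_filter, Finset.mem_univ, true_and]
        exact ⟨hr, hc, h21, h22, h11, h12⟩
      · apply Finset.mem_union_right
        apply Finset.mem_union_right
        rw [hE2]
        apply Finset.mem_image.mpr
        refine ⟨(r1, r2, c1), Finset.mem_univ _, ?_⟩
        rw [hc]
      · apply Finset.mem_union_left
        apply Finset.mem_union_right
        apply Finset.mem_union_right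
        rw [hI3]
        apply Finset.mem_image.mpr
        refine ⟨(r2, r1, c2, c1), ?_, rfl⟩
        rw [hQf]
        simp only [Finset.mem_filter, Finset.mem_univ, true_and]
        exact ⟨hr, hc, h22, h21, h12, h11⟩
  have h1 := Finset.card_le_card hsub
  have h2 := Finset.card_union_le ((Qf ∪ I1) ∪ (I2 ∪ I3)) (E1 ∪ E2)
  have h3 := Finset.card_union_le (Qf ∪ I1) (I2 ∪ I3)
  have h4 := Finset.card_union_le Qf I1
  have h5 := Finset.card_union_le I2 I3
  have h6 := Finset.card_union_le E1 E2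
  rw [hq]
  omega

/-- **Removal bound for the all-ones 2 x 2 pattern**, with constant `1/256` and exponent `16`. -/
theorem qrem_allOnes : QRem (fun _ _ => true) (1 / 256) 16 := by
  intro n A ε hε hε1 hfar
  rcases Nat.eq_zero_or_pos n with hn | hn
  · subst hn
    simp
  have hnR : (1 : ℝ) ≤ (n : ℝ) := by exact_mod_cast hn
  have hn0 : (0 : ℝ) < (n : ℝ) := by linarith
  -- at least one copy
  have hone : (1 : ℝ) ≤ (qcount (fun _ _ => true) A : ℝ) := by
    by_contra hcon
    have hz : qcount (fun _ _ => true) A = 0 := by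
      have : (qcount (fun _ _ => true) A : ℝ) < 1 := not_le.mp hcon
      have h' : qcount (fun _ _ => true) A < 1 := by exact_mod_cast this
      omega
    have hfree : ∀ r1 r2 c1 c2, ¬ Quad (fun _ _ => true) A r1 r2 c1 c2 := by
      intro r1 r2 c1 c2 hQ
      unfold qcount at hz
      rw [Set.ncard_eq_zero (Set.toFinite _)] at hz
      have hmem : (r1, r2, c1, c2) ∈
          {x : Fin n × Fin n × Fin n × Fin n | Quad (fun _ _ => true) A x.1 x.2.1 x.2.2.1 x.2.2.2} :=
        hQ
      rw [hz] at hmem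
      exact hmem
    have h0 := hfar A hfree
    have hself : entryDiff A A = 0 := by
      unfold entryDiff
      simp
    rw [hself] at h0
    have : 0 < ε * (n : ℝ) ^ 2 := by positivity
    simp at h0
    linarith
  -- the number of ones
  have hones := hfar (fun _ _ => false) (by
    intro r1 r2 c1 c2 hQ
    obtain ⟨_, _, h, _⟩ := hQ
    simp at h)
  rw [entryDiff_zero_eq] at hones
  have hCS := sum_pow_four_le (fun r c => if A r c = true then (1 : ℝ) else 0)
  rw [← card_onesQuads_eq] at hCS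
  have hle : ((onesQuads A).card : ℝ) ≤ 4 * (qcount (fun _ _ => true) A : ℝ) + 2 * (n : ℝ) ^ 3 := by
    have h := card_onesQuads_le A
    exact_mod_cast h
  set x : ℝ := ∑ r, ∑ c, (if A r c = true then (1 : ℝ) else 0) with hx
  set M : ℝ := ((onesQuads A).card : ℝ) with hM
  set qc : ℝ := (qcount (fun _ _ => true) A : ℝ) with hqc
  -- ε^4 n^4 ≤ M
  have hpow : (ε * (n : ℝ) ^ 2) ^ 4 ≤ x ^ 4 := pow_le_pow_left₀ (by positivity) hones 4
  have hkey : ε ^ 4 * (n : ℝ) ^ 4 ≤ M := by
    have h1 : (n : ℝ) ^ 4 * (ε ^ 4 * (n : ℝ) ^ 4) ≤ (n : ℝ) ^ 4 * M := by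
      calc (n : ℝ) ^ 4 * (ε ^ 4 * (n : ℝ) ^ 4) = (ε * (n : ℝ) ^ 2) ^ 4 := by ring
        _ ≤ x ^ 4 := hpow
        _ ≤ (n : ℝ) ^ 4 * M := hCS
    exact le_of_mul_le_mul_left h1 (by positivity)
  have hmain : ε ^ 4 * (n : ℝ) ^ 4 ≤ 4 * qc + 2 * (n : ℝ) ^ 3 := le_trans hkey hle
  have hε4 : (0 : ℝ) < ε ^ 4 := by positivity
  rcases le_or_gt 4 (ε ^ 4 * (n : ℝ)) with hbig | hsmall
  · -- 2 n^3 ≤ ε^4 n^4 / 2
    have h1 : 4 * (n : ℝ) ^ 3 ≤ ε ^ 4 * (n : ℝ) ^ 4 := by
      calc 4 * (n : ℝ) ^ 3 ≤ (ε ^ 4 * (n : ℝ)) * (n : ℝ) ^ 3 :=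
            mul_le_mul_of_nonneg_right hbig (by positivity)
        _ = ε ^ 4 * (n : ℝ) ^ 4 := by ring
    have h2 : ε ^ 4 * (n : ℝ) ^ 4 ≤ 8 * qc := by linarith
    have h3 : ε ^ 16 ≤ ε ^ 4 := pow_le_pow_of_le_one hε.le hε1 (by norm_num)
    have h4 : ε ^ 16 * (n : ℝ) ^ 4 ≤ ε ^ 4 * (n : ℝ) ^ 4 :=
      mul_le_mul_of_nonneg_right h3 (by positivity)
    have h5 : (0 : ℝ) ≤ ε ^ 16 * (n : ℝ) ^ 4 := by positivity
    calc (1 / 256 : ℝ) * ε ^ 16 * (n : ℝ) ^ 4 = (1 / 256) * (ε ^ 16 * (n : ℝ) ^ 4) := by ring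
      _ ≤ (1 / 8) * (ε ^ 16 * (n : ℝ) ^ 4) := by nlinarith
      _ ≤ (1 / 8) * (ε ^ 4 * (n : ℝ) ^ 4) := by linarith
      _ ≤ qc := by linarith
  · have h1 : (ε ^ 4 * (n : ℝ)) ^ 4 < 4 ^ 4 :=
      pow_lt_pow_left₀ hsmall (by positivity) (by norm_num)
    have h2 : (1 / 256 : ℝ) * ε ^ 16 * (n : ℝ) ^ 4 = (1 / 256) * (ε ^ 4 * (n : ℝ)) ^ 4 := by ring
    rw [h2]
    have h3 : (1 / 256 : ℝ) * (ε ^ 4 * (n : ℝ)) ^ 4 < 1 := by
      have : (4 : ℝ) ^ 4 = 256 := by norm_num
      rw [this] at h1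
      linarith
    linarith

end Vale.Agent.Lib.P037B
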