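import Mathlib
import Vale.Agent.Lib.P037B.QRem
import Vale.Agent.Lib.P037G.Clean

/-!
# Polynomial removal for the 2 x 2 patterns with two equal rows `(x, !x)`

`qrem_rowsEq x`: the quadruple removal bound `QRem` with constant `1/10000` and exponent `8` for
the pattern whose two rows are both `(x, !x)`; in particular for `[[1,0],[1,0]]` and
`[[0,1],[0,1]]`.  Auxiliary lemmas live in the sub-namespace `EqualRows` (no name clashes
with `RowRepair.lean` / `RowCount.lean`).
-/

namespace Vale.Agent.Lib.P037B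

open Finset
open Classical

variable {n : ℕ}

/-- The 2 x 2 pattern with both rows equal to `(x, !x)`. -/
def rowsEqPat (x : Bool) : Fin 2 → Fin 2 → Bool := fun _ j => if j = 0 then x else !x

namespace EqualRows

theorem quad_rowsEq_iff (x : Bool) (A : Fin n → Fin n → Bool) (r1 r2 c1 c2 : Fin n) :
    Quad (rowsEqPat x) A r1 r2 c1 c2 ↔
      r1 < r2 ∧ c1 < c2 ∧ A r1 c1 = x ∧ A r1 c2 ≠ x ∧ A r2 c1 = x ∧ A r2 c2 ≠ x := by
  unfold Quad rowsEqPat
  have e1 : ∀ b : Bool, (b = !x) ↔ b ≠ x := by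
    intro b; cases b <;> cases x <;> simp
  simp only [Fin.isValue, if_true, one_ne_zero, if_false, e1]

/-- The number of pairs `c1 < c2` of columns with `A r c1 = x` and `A r c2 ≠ x`. -/
noncomputable def invRow (x : Bool) (A : Fin n → Fin n → Bool) (r : Fin n) : ℕ :=
  (((univ.filter (fun c => A r c = x)) ×ˢ (univ.filter (fun c => A r c ≠ x))).filter
    (fun p => p.1 < p.2)).card

/-- The rows having `x` in column `p.1` and not `x` in column `p.2`. -/
noncomputable def invRows (x : Bool) (A : Fin n → Fin n → Bool) (p : Fin n × Fin n) :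
    Finset (Fin n) :=
  univ.filter (fun r => A r p.1 = x ∧ A r p.2 ≠ x)

/-- Each row agrees, outside a set `Z` of columns with `|Z|² ≤ 5 · invRow`, with a threshold row
(`!x` before the threshold `s`, `x` from `s` on). -/
theorem row_repair (x : Bool) (A : Fin n → Fin n → Bool) (r : Fin n) :
    ∃ (s : ℕ) (Z : Finset (Fin n)),
      Z.card ^ 2 ≤ 5 * invRow x A r ∧
      ∀ c, c ∉ Z → A r c = (if s ≤ c.val then x else !x) := by
  obtain ⟨Z, hZ, hhit⟩ := Vale.Agent.Lib.P037G.cut_lemma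
    (univ.filter (fun c => A r c = x)) (univ.filter (fun c => A r c ≠ x))
  have e1 : ∀ b : Bool, b ≠ x → b = !x := by
    intro b; cases b <;> cases x <;> simp
  by_cases hG : (univ.filter (fun c => c ∉ Z ∧ A r c = x)).Nonempty
  · refine ⟨((univ.filter (fun c => c ∉ Z ∧ A r c = x)).min' hG).val, Z, hZ, ?_⟩
    intro c hc
    have hmin := Finset.min'_mem _ hG
    rw [Finset.mem_filter] at hmin
    by_cases hx : A r c = x
    · have hle : (univ.filter (fun c => c ∉ Z ∧ A r c = x)).min' hG ≤ c :=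
        Finset.min'_le _ _ (by rw [Finset.mem_filter]; exact ⟨mem_univ _, hc, hx⟩)
      rw [if_pos (Fin.le_def.mp hle), hx]
    · have hnle : ¬ ((univ.filter (fun c => c ∉ Z ∧ A r c = x)).min' hG).val ≤ c.val := by
        intro hle
        have hne : (univ.filter (fun c => c ∉ Z ∧ A r c = x)).min' hG ≠ c := by
          intro heq
          rw [heq] at hmin
          exact hx hmin.2.2
        have hlt : (univ.filter (fun c => c ∉ Z ∧ A r c = x)).min' hG < c :=
          lt_of_le_of_ne (Fin.le_def.mpr hle) hne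
        rcases hhit _ (by rw [mem_filter]; exact ⟨mem_univ _, hmin.2.2⟩) c
          (by rw [mem_filter]; exact ⟨mem_univ _, hx⟩) hlt with h | h
        · exact hmin.2.1 h
        · exact hc h
      rw [if_neg hnle]
      exact e1 _ hx
  · refine ⟨n, Z, hZ, ?_⟩
    intro c hc
    have hx : A r c ≠ x := by
      intro hx
      exact hG ⟨c, by rw [mem_filter]; exact ⟨mem_univ _, hc, hx⟩⟩
    rw [if_neg (by have := c.isLt; omega)]
    exact e1 _ hx

theorem entryDiff_eq_sum (A B : Fin n → Fin n → Bool) :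
    entryDiff A B = ∑ r, (univ.filter (fun c => A r c ≠ B r c)).card := by
  unfold entryDiff
  rw [Finset.card_filter, Fintype.sum_prod_type]
  refine Finset.sum_congr rfl fun r _ => ?_
  rw [Finset.card_filter]

theorem sum_invRow (x : Bool) (A : Fin n → Fin n → Bool) :
    ∑ r, invRow x A r
      = ∑ p ∈ univ.filter (fun p : Fin n × Fin n => p.1 < p.2), (invRows x A p).card := by
  have h := Finset.sum_card_bipartiteAbove_eq_sum_card_bipartiteBelow
    (s := (univ : Finset (Fin n))) (t := univ.filter (fun p : Fin n × Fin n => p.1 < p.2))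
    (r := fun r p => A r p.1 = x ∧ A r p.2 ≠ x)
  have e1 : ∀ r, invRow x A r
      = ((univ.filter (fun p : Fin n × Fin n => p.1 < p.2)).bipartiteAbove
          (fun r p => A r p.1 = x ∧ A r p.2 ≠ x) r).card := by
    intro r
    unfold invRow Finset.bipartiteAbove
    congr 1
    ext p
    simp only [mem_filter, mem_product, mem_univ, true_and]
    tauto
  have e2 : ∀ p, (invRows x A p).card
      = ((univ : Finset (Fin n)).bipartiteBelow
          (fun r p => A r p.1 = x ∧ A r p.2 ≠ x) p).card := by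
    intro p
    rfl
  simp only [e1, e2]
  exact h

theorem card_sq_eq (s : Finset (Fin n)) :
    s.card ^ 2 = 2 * ((s ×ˢ s).filter (fun q => q.1 < q.2)).card + s.card := by
  have h1 : ((s ×ˢ s).filter (fun q => q.2 < q.1)).card
      = ((s ×ˢ s).filter (fun q => q.1 < q.2)).card := by
    apply Finset.card_bij (fun q _ => (q.2, q.1))
    · intro q hq
      simp only [mem_filter, mem_product] at hq ⊢
      exact ⟨⟨hq.1.2, hq.1.1⟩, hq.2⟩
    · intro q1 _ q2 _ h
      simp only [Prod.mk.injEq] at h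
      exact Prod.ext h.2 h.1
    · intro q hq
      simp only [mem_filter, mem_product] at hq
      exact ⟨(q.2, q.1), by simp only [mem_filter, mem_product]; exact ⟨⟨hq.1.2, hq.1.1⟩, hq.2⟩,
        rfl⟩
  have h2 : ((s ×ˢ s).filter (fun q => q.1 = q.2)).card = s.card := by
    have e : (s ×ˢ s).filter (fun q => q.1 = q.2) = s.diag := by
      ext q
      simp only [mem_filter, mem_product, Finset.mem_diag]
      constructor
      · rintro ⟨⟨h1, _⟩, h3⟩
        exact ⟨h1, h3⟩
      · rintro ⟨h1, h3⟩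
        exact ⟨⟨h1, h3 ▸ h1⟩, h3⟩
    rw [e, Finset.diag_card]
  have h3 : (s ×ˢ s).card = ((s ×ˢ s).filter (fun q => q.1 < q.2)).card
      + ((s ×ˢ s).filter (fun q => q.2 < q.1)).card
      + ((s ×ˢ s).filter (fun q => q.1 = q.2)).card := by
    rw [Finset.card_eq_sum_ones (s ×ˢ s), Finset.card_filter, Finset.card_filter,
      Finset.card_filter, ← Finset.sum_add_distrib, ← Finset.sum_add_distrib]
    refine Finset.sum_congr rfl fun q _ => ?_
    rcases lt_trichotomy q.1 q.2 with h | h | h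
    · rw [if_pos h, if_neg (not_lt.mpr h.le), if_neg h.ne]
    · rw [if_neg (by rw [h]; exact lt_irrefl _), if_neg (by rw [h]; exact lt_irrefl _), if_pos h]
    · rw [if_neg (not_lt.mpr h.le), if_pos h, if_neg h.ne']
  rw [Finset.card_product, h1, h2] at h3
  rw [sq, h3]
  ring

theorem sum_pairs_le_qcount (x : Bool) (A : Fin n → Fin n → Bool) :
    ∑ p ∈ univ.filter (fun p : Fin n × Fin n => p.1 < p.2),
        (((invRows x A p) ×ˢ (invRows x A p)).filter (fun q => q.1 < q.2)).card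
      ≤ qcount (rowsEqPat x) A := by
  rw [← Finset.card_sigma]
  unfold qcount
  rw [Set.ncard_eq_toFinset_card']
  apply Finset.card_le_card_of_injOn (fun z => (z.2.1, z.2.2, z.1.1, z.1.2))
  · rintro ⟨p, q⟩ hz
    have hz' := Finset.mem_sigma.mp (Finset.mem_coe.mp hz)
    simp only [mem_filter, mem_univ, true_and, mem_product, invRows] at hz'
    simp only [Set.coe_toFinset, Set.mem_ofPred_eq]
    rw [quad_rowsEq_iff]
    exact ⟨hz'.2.2, hz'.1, hz'.2.1.1.1, hz'.2.1.1.2, hz'.2.1.2.1, hz'.2.1.2.2⟩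
  · rintro ⟨p1, q1⟩ _ ⟨p2, q2⟩ _ h
    simp only [Prod.mk.injEq] at h
    obtain ⟨h1, h2, h3, h4⟩ := h
    have hp : p1 = p2 := Prod.ext h3 h4
    have hq : q1 = q2 := Prod.ext h1 h2
    subst hp
    subst hq
    rfl

/-- The count inequality: `S² ≤ n² (2 · qcount + S)` for `S = ∑ r, invRow`. -/
theorem sum_sq_le (x : Bool) (A : Fin n → Fin n → Bool) :
    ((∑ r, invRow x A r : ℕ) : ℝ) ^ 2
      ≤ (n : ℝ) ^ 2 * (2 * (qcount (rowsEqPat x) A : ℝ) + ((∑ r, invRow x A r : ℕ) : ℝ)) := by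
  have hq := sum_pairs_le_qcount x A
  have hS := sum_invRow x A
  have hcard : ((univ.filter (fun p : Fin n × Fin n => p.1 < p.2)).card : ℝ) ≤ (n : ℝ) ^ 2 := by
    have h1 : (univ.filter (fun p : Fin n × Fin n => p.1 < p.2)).card
        ≤ (univ : Finset (Fin n × Fin n)).card := Finset.card_le_card (Finset.filter_subset _ _)
    rw [Finset.card_univ, Fintype.card_prod, Fintype.card_fin] at h1
    have h2 : ((univ.filter (fun p : Fin n × Fin n => p.1 < p.2)).card : ℝ) ≤ ((n * n : ℕ) : ℝ) := by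
      exact_mod_cast h1
    rw [sq]
    push_cast at h2
    exact h2
  have hCS := sq_sum_le_card_mul_sum_sq
    (s := univ.filter (fun p : Fin n × Fin n => p.1 < p.2))
    (f := fun p => ((invRows x A p).card : ℝ))
  have hsq : ∑ p ∈ univ.filter (fun p : Fin n × Fin n => p.1 < p.2),
      ((invRows x A p).card : ℝ) ^ 2
      ≤ 2 * (qcount (rowsEqPat x) A : ℝ) + ((∑ r, invRow x A r : ℕ) : ℝ) := by
    have e : ∀ p : Fin n × Fin n, ((invRows x A p).card : ℝ) ^ 2
        = 2 * ((((invRows x A p) ×ˢ (invRows x A p)).filter (fun q => q.1 < q.2)).card : ℝ)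
          + ((invRows x A p).card : ℝ) := by
      intro p
      have := card_sq_eq (invRows x A p)
      exact_mod_cast this
    simp only [e]
    rw [Finset.sum_add_distrib, ← Finset.mul_sum, hS]
    have hq' : (∑ p ∈ univ.filter (fun p : Fin n × Fin n => p.1 < p.2),
        ((((invRows x A p) ×ˢ (invRows x A p)).filter (fun q => q.1 < q.2)).card : ℝ))
        ≤ (qcount (rowsEqPat x) A : ℝ) := by
      exact_mod_cast hq
    push_cast
    linarith
  have hS' : ((∑ r, invRow x A r : ℕ) : ℝ)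
      = ∑ p ∈ univ.filter (fun p : Fin n × Fin n => p.1 < p.2), ((invRows x A p).card : ℝ) := by
    rw [hS]
    push_cast
    rfl
  have hCS' : ((∑ r, invRow x A r : ℕ) : ℝ) ^ 2
      ≤ ((univ.filter (fun p : Fin n × Fin n => p.1 < p.2)).card : ℝ)
        * ∑ p ∈ univ.filter (fun p : Fin n × Fin n => p.1 < p.2),
            ((invRows x A p).card : ℝ) ^ 2 := by
    rw [hS']
    exact hCS
  have hnn : (0 : ℝ) ≤ ∑ p ∈ univ.filter (fun p : Fin n × Fin n => p.1 < p.2),
      ((invRows x A p).card : ℝ) ^ 2 := Finset.sum_nonneg (fun p _ => by positivity)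
  calc ((∑ r, invRow x A r : ℕ) : ℝ) ^ 2
      ≤ ((univ.filter (fun p : Fin n × Fin n => p.1 < p.2)).card : ℝ)
        * ∑ p ∈ univ.filter (fun p : Fin n × Fin n => p.1 < p.2),
            ((invRows x A p).card : ℝ) ^ 2 := hCS'
    _ ≤ (n : ℝ) ^ 2 * ∑ p ∈ univ.filter (fun p : Fin n × Fin n => p.1 < p.2),
            ((invRows x A p).card : ℝ) ^ 2 := mul_le_mul_of_nonneg_right hcard hnn
    _ ≤ (n : ℝ) ^ 2 * (2 * (qcount (rowsEqPat x) A : ℝ) + ((∑ r, invRow x A r : ℕ) : ℝ)) :=
        mul_le_mul_of_nonneg_left hsq (by positivity)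

/-- Pure arithmetic: the final step of the removal bound. -/
theorem rowsEq_arith (N ε t S Q : ℝ) (hN : 1 ≤ N) (hε : 0 < ε) (hε1 : ε ≤ 1) (hS0 : 0 ≤ S)
    (ha : ε * N ^ 2 ≤ t) (hb : t ^ 2 ≤ 5 * N * S) (hc : S ^ 2 ≤ N ^ 2 * (2 * Q + S))
    (hd : 1 ≤ Q) : 1 / 10000 * ε ^ 8 * N ^ 4 ≤ Q := by
  have hN0 : 0 < N := by linarith
  have ht0 : 0 ≤ ε * N ^ 2 := by positivity
  -- (i) ε² N³ ≤ 5 S
  have h1 : ε ^ 2 * N ^ 4 ≤ 5 * N * S := by
    have : (ε * N ^ 2) ^ 2 ≤ t ^ 2 := pow_le_pow_left₀ ht0 ha 2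
    calc ε ^ 2 * N ^ 4 = (ε * N ^ 2) ^ 2 := by ring
      _ ≤ t ^ 2 := this
      _ ≤ 5 * N * S := hb
  have h2 : ε ^ 2 * N ^ 3 ≤ 5 * S := by
    have h3 : N * (ε ^ 2 * N ^ 3) ≤ N * (5 * S) := by
      calc N * (ε ^ 2 * N ^ 3) = ε ^ 2 * N ^ 4 := by ring
        _ ≤ 5 * N * S := h1
        _ = N * (5 * S) := by ring
    exact le_of_mul_le_mul_left h3 hN0
  by_cases hcase : 2 * N ^ 2 ≤ S
  · -- S ≥ 2 N²: 4 N² Q ≥ S²
    have h4 : S ^ 2 ≤ 4 * N ^ 2 * Q := by nlinarith [mul_nonneg hS0 (sub_nonneg.mpr hcase)]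
    have h5 : (ε ^ 2 * N ^ 3) ^ 2 ≤ (5 * S) ^ 2 := pow_le_pow_left₀ (by positivity) h2 2
    have h6 : N ^ 2 * (ε ^ 4 * N ^ 4) ≤ N ^ 2 * (100 * Q) := by
      calc N ^ 2 * (ε ^ 4 * N ^ 4) = (ε ^ 2 * N ^ 3) ^ 2 := by ring
        _ ≤ (5 * S) ^ 2 := h5
        _ = 25 * S ^ 2 := by ring
        _ ≤ 25 * (4 * N ^ 2 * Q) := by linarith
        _ = N ^ 2 * (100 * Q) := by ring
    have h7 : ε ^ 4 * N ^ 4 ≤ 100 * Q := le_of_mul_le_mul_left h6 (by positivity)
    have h8 : ε ^ 8 ≤ ε ^ 4 := pow_le_pow_of_le_one hε.le hε1 (by norm_num)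
    have h9 : ε ^ 8 * N ^ 4 ≤ ε ^ 4 * N ^ 4 := mul_le_mul_of_nonneg_right h8 (by positivity)
    have h10 : (0 : ℝ) ≤ ε ^ 8 * N ^ 4 := by positivity
    linarith
  · -- S < 2 N²: ε² N < 10
    have hS2 : S < 2 * N ^ 2 := not_le.mp hcase
    have h4 : ε ^ 2 * N < 10 := by
      have h5 : N ^ 2 * (ε ^ 2 * N) < N ^ 2 * 10 := by
        calc N ^ 2 * (ε ^ 2 * N) = ε ^ 2 * N ^ 3 := by ring
          _ ≤ 5 * S := h2
          _ < 5 * (2 * N ^ 2) := by linarith
          _ = N ^ 2 * 10 := by ring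
      exact lt_of_mul_lt_mul_left h5 (by positivity)
    have h6 : (ε ^ 2 * N) ^ 4 ≤ 10 ^ 4 := pow_le_pow_left₀ (by positivity) h4.le 4
    have h7 : ε ^ 8 * N ^ 4 = (ε ^ 2 * N) ^ 4 := by ring
    have h8 : ε ^ 8 * N ^ 4 ≤ 10000 := by
      rw [h7]
      calc (ε ^ 2 * N) ^ 4 ≤ 10 ^ 4 := h6
        _ = 10000 := by norm_num
    linarith

end EqualRows

open EqualRows in
/-- **Removal for the patterns with two equal rows `(x, !x)`.** -/
theorem qrem_rowsEq (x : Bool) : QRem (rowsEqPat x) (1 / 10000) 8 := by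
  intro n A ε hε hε1 hfar
  rcases Nat.eq_zero_or_pos n with hn | hn
  · subst hn
    simp
  have hN : (1 : ℝ) ≤ (n : ℝ) := by exact_mod_cast hn
  -- the repaired matrix
  choose s Z hZ hrow using fun r => row_repair x A r
  have hBfree : ∀ r1 r2 c1 c2,
      ¬ Quad (rowsEqPat x) (fun r c => if s r ≤ c.val then x else !x) r1 r2 c1 c2 := by
    intro r1 r2 c1 c2 hq
    rw [quad_rowsEq_iff] at hq
    obtain ⟨_, hc, h1, h2, _, _⟩ := hq
    by_cases hs : s r1 ≤ c1.val
    · have hs2 : s r1 ≤ c2.val := le_trans hs (le_of_lt (Fin.lt_def.mp hc))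
      rw [if_pos hs2] at h2
      exact h2 rfl
    · rw [if_neg hs] at h1
      cases x <;> simp at h1
  have hdiffN : entryDiff A (fun r c => if s r ≤ c.val then x else !x) ≤ ∑ r, (Z r).card := by
    rw [entryDiff_eq_sum]
    refine Finset.sum_le_sum fun r _ => Finset.card_le_card ?_
    intro c hc
    rw [mem_filter] at hc
    by_contra hcZ
    exact hc.2 (hrow r c hcZ)
  have ha : ε * (n : ℝ) ^ 2 ≤ ((∑ r, (Z r).card : ℕ) : ℝ) := by
    have h1 := hfar _ hBfree
    have h2 : (entryDiff A (fun r c => if s r ≤ c.val then x else !x) : ℝ)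
        ≤ ((∑ r, (Z r).card : ℕ) : ℝ) := by exact_mod_cast hdiffN
    linarith
  have hb : ((∑ r, (Z r).card : ℕ) : ℝ) ^ 2
      ≤ 5 * (n : ℝ) * ((∑ r, invRow x A r : ℕ) : ℝ) := by
    have hCS := sq_sum_le_card_mul_sum_sq (s := (univ : Finset (Fin n)))
      (f := fun r => ((Z r).card : ℝ))
    rw [Finset.card_univ, Fintype.card_fin] at hCS
    have h3 : ∑ r, ((Z r).card : ℝ) ^ 2 ≤ 5 * ((∑ r, invRow x A r : ℕ) : ℝ) := by
      have h4 : ∑ r, (Z r).card ^ 2 ≤ 5 * ∑ r, invRow x A r := by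
        rw [Finset.mul_sum]
        exact Finset.sum_le_sum fun r _ => hZ r
      exact_mod_cast h4
    have h5 : ((∑ r, (Z r).card : ℕ) : ℝ) = ∑ r, ((Z r).card : ℝ) := by push_cast; rfl
    rw [h5]
    calc (∑ r, ((Z r).card : ℝ)) ^ 2 ≤ (n : ℝ) * ∑ r, ((Z r).card : ℝ) ^ 2 := hCS
      _ ≤ (n : ℝ) * (5 * ((∑ r, invRow x A r : ℕ) : ℝ)) :=
          mul_le_mul_of_nonneg_left h3 (by positivity)
      _ = 5 * (n : ℝ) * ((∑ r, invRow x A r : ℕ) : ℝ) := by ring
  have hc := sum_sq_le x A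
  have hd : (1 : ℝ) ≤ (qcount (rowsEqPat x) A : ℝ) := by
    have hex : ∃ r1 r2 c1 c2, Quad (rowsEqPat x) A r1 r2 c1 c2 := by
      by_contra hno
      push Not at hno
      have h1 := hfar A hno
      have h2 : entryDiff A A = 0 := by
        unfold entryDiff
        simp
      rw [h2] at h1
      have h3 : 0 < ε * (n : ℝ) ^ 2 := by positivity
      simp at h1
      linarith
    obtain ⟨r1, r2, c1, c2, hq⟩ := hex
    have hpos : 0 < qcount (rowsEqPat x) A := by
      unfold qcount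
      rw [Set.ncard_pos]
      exact ⟨(r1, r2, c1, c2), hq⟩
    exact_mod_cast hpos
  exact rowsEq_arith (n : ℝ) ε _ _ _ hN hε hε1 (Nat.cast_nonneg _) ha hb hc hd

/-- The pattern `[[1,0],[1,0]]`. -/
theorem qrem_equalRows : QRem ![![true, false], ![true, false]] (1 / 10000) 8 := by
  have h := qrem_rowsEq true
  have e : rowsEqPat true = ![![true, false], ![true, false]] := by
    funext i j
    fin_cases i <;> fin_cases j <;> rfl
  rw [e] at h
  exact h

/-- The pattern `[[0,1],[0,1]]`. -/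
theorem qrem_equalRows' : QRem ![![false, true], ![false, true]] (1 / 10000) 8 := by
  have h := qrem_rowsEq false
  have e : rowsEqPat false = ![![false, true], ![false, true]] := by
    funext i j
    fin_cases i <;> fin_cases j <;> rfl
  rw [e] at h
  exact h

end Vale.Agent.Lib.P037B
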