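import Mathlib
import Vale.Agent.Lib.P037I.Main
import Vale.Agent.Lib.P037B.Removal

/-!
# Polynomial removal for the block patterns and the mirrored block patterns
-/

namespace Vale.Agent.Lib.P037B

open Finset

/-- The 2 x 2 identity pattern `[[1,0],[0,1]]`. -/
def idPat : Fin 2 → Fin 2 → Bool := fun a b => decide (a = b)

/-- The 2 x 2 pattern `[[0,1],[1,0]]`. -/
def antiPat : Fin 2 → Fin 2 → Bool := fun a b => decide (a ≠ b)

theorem blockPattern_eq (k p q : ℕ) : blockPattern k p q = blow idPat k p q := by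
  funext i j
  unfold blockPattern blow idPat
  by_cases hi : (i : ℕ) < p <;> by_cases hj : (j : ℕ) < q <;> simp [hi, hj]
  omega

theorem antiBlockPattern_eq (k p q : ℕ) : antiBlockPattern k p q = blow antiPat k p q := by
  funext i j
  unfold antiBlockPattern blow antiPat
  by_cases hi : (i : ℕ) < p <;> by_cases hj : (j : ℕ) < q <;> simp [hi, hj] <;> omega

theorem quad_id_iff {n : ℕ} (A : Fin n → Fin n → Bool) (r1 r2 c1 c2 : Fin n) :
    Quad idPat A r1 r2 c1 c2 ↔ Vale.Agent.Lib.P037I.IsCopy A r1 r2 c1 c2 := by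
  unfold Quad idPat Vale.Agent.Lib.P037I.IsCopy
  simp

theorem entryDiff_eq {n : ℕ} (A B : Fin n → Fin n → Bool) :
    entryDiff A B = Vale.Agent.Lib.P037I.dist A B := rfl

theorem qcount_id {n : ℕ} (A : Fin n → Fin n → Bool) :
    qcount idPat A = Vale.Agent.Lib.P037I.copies A := by
  unfold qcount Vale.Agent.Lib.P037I.copies
  rw [← ncard_eq_card_filter
    (fun x : (Fin n × Fin n) × (Fin n × Fin n) =>
      Vale.Agent.Lib.P037I.IsCopy A x.1.1 x.1.2 x.2.1 x.2.2)]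
  rw [← Set.ncard_image_of_injective _ (Equiv.prodAssoc (Fin n) (Fin n) (Fin n × Fin n)).injective]
  congr 1
  ext x
  constructor
  · intro hx
    refine ⟨((x.1, x.2.1), x.2.2), ?_, rfl⟩
    exact (quad_id_iff A _ _ _ _).mp hx
  · rintro ⟨y, hy, rfl⟩
    exact (quad_id_iff A _ _ _ _).mpr hy

/-- The removal bound for the 2 x 2 identity pattern, in quadruple form. -/
theorem base_id (n : ℕ) (A : Fin n → Fin n → Bool) (ε : ℝ) (hε : 0 < ε) (hε1 : ε ≤ 1)
    (hfar : ∀ B : Fin n → Fin n → Bool, (∀ r1 r2 c1 c2, ¬ Quad idPat B r1 r2 c1 c2) →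
      ε * (n : ℝ) ^ 2 ≤ (entryDiff A B : ℝ)) :
    1 / 10 ^ 74 * ε ^ 46 * (n : ℝ) ^ 4 ≤ (qcount idPat A : ℝ) := by
  have h := Vale.Agent.Lib.P037I.removal_identity n A ε hε hε1 (by
    intro B hB
    rw [← entryDiff_eq]
    exact hfar B (fun r1 r2 c1 c2 hq => hB r1 r2 c1 c2 ((quad_id_iff B _ _ _ _).mp hq)))
  rw [qcount_id]
  have e : 1 / 10 ^ 74 * ε ^ 46 * (n : ℝ) ^ 4 = (ε ^ 46 * (n : ℝ) ^ 4) / 10 ^ 74 := by ring
  rw [e, div_le_iff₀ (by positivity)]
  linarith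

/-- Reverse the column order of a matrix. -/
def revCols {n : ℕ} (A : Fin n → Fin n → Bool) : Fin n → Fin n → Bool :=
  fun r c => A r (Fin.rev c)

theorem revCols_revCols {n : ℕ} (A : Fin n → Fin n → Bool) : revCols (revCols A) = A := by
  funext r c
  unfold revCols
  rw [Fin.rev_rev]

theorem quad_anti_iff {n : ℕ} (A : Fin n → Fin n → Bool) (r1 r2 c1 c2 : Fin n) :
    Quad antiPat A r1 r2 c1 c2 ↔
      Vale.Agent.Lib.P037I.IsCopy (revCols A) r1 r2 (Fin.rev c2) (Fin.rev c1) := by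
  unfold Quad antiPat Vale.Agent.Lib.P037I.IsCopy revCols
  simp only [Fin.rev_rev, Fin.rev_lt_rev]
  simp
  tauto

theorem entryDiff_revCols {n : ℕ} (A B : Fin n → Fin n → Bool) :
    entryDiff (revCols A) (revCols B) = entryDiff A B := by
  unfold entryDiff
  apply Finset.card_equiv (Equiv.prodCongr (Equiv.refl (Fin n)) Fin.revPerm)
  intro x
  simp only [Finset.mem_filter, Finset.mem_univ, true_and]
  exact Iff.rfl

theorem qcount_anti {n : ℕ} (A : Fin n → Fin n → Bool) :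
    qcount antiPat A = Vale.Agent.Lib.P037I.copies (revCols A) := by
  unfold qcount Vale.Agent.Lib.P037I.copies
  rw [← ncard_eq_card_filter
    (fun x : (Fin n × Fin n) × (Fin n × Fin n) =>
      Vale.Agent.Lib.P037I.IsCopy (revCols A) x.1.1 x.1.2 x.2.1 x.2.2)]
  have hinj : Function.Injective (fun y : (Fin n × Fin n) × (Fin n × Fin n) =>
      ((y.1.1, y.1.2, Fin.rev y.2.2, Fin.rev y.2.1) : Fin n × Fin n × Fin n × Fin n)) := by
    rintro ⟨⟨a1, a2⟩, ⟨a3, a4⟩⟩ ⟨⟨b1, b2⟩, ⟨b3, b4⟩⟩ h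
    simp only [Prod.mk.injEq, Fin.rev_inj] at h
    obtain ⟨h1, h2, h3, h4⟩ := h
    rw [h1, h2, h3, h4]
  rw [← Set.ncard_image_of_injective _ hinj]
  congr 1
  ext x
  constructor
  · intro hx
    refine ⟨((x.1, x.2.1), (Fin.rev x.2.2.2, Fin.rev x.2.2.1)), ?_, ?_⟩
    · exact (quad_anti_iff A _ _ _ _).mp hx
    · simp
  · rintro ⟨y, hy, rfl⟩
    apply (quad_anti_iff A _ _ _ _).mpr
    simp only [Fin.rev_rev]
    exact hy

/-- The removal bound for the pattern `[[0,1],[1,0]]`, in quadruple form. -/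
theorem base_anti (n : ℕ) (A : Fin n → Fin n → Bool) (ε : ℝ) (hε : 0 < ε) (hε1 : ε ≤ 1)
    (hfar : ∀ B : Fin n → Fin n → Bool, (∀ r1 r2 c1 c2, ¬ Quad antiPat B r1 r2 c1 c2) →
      ε * (n : ℝ) ^ 2 ≤ (entryDiff A B : ℝ)) :
    1 / 10 ^ 74 * ε ^ 46 * (n : ℝ) ^ 4 ≤ (qcount antiPat A : ℝ) := by
  have h := Vale.Agent.Lib.P037I.removal_identity n (revCols A) ε hε hε1 (by
    intro B hB
    have h1 := hfar (revCols B) (fun r1 r2 c1 c2 hq => by
      have h2 := (quad_anti_iff (revCols B) r1 r2 c1 c2).mp hq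
      rw [revCols_revCols] at h2
      exact hB _ _ _ _ h2)
    rw [← entryDiff_eq]
    have h3 : entryDiff (revCols A) B = entryDiff A (revCols B) := by
      have h4 := entryDiff_revCols A (revCols B)
      rw [revCols_revCols] at h4
      exact h4
    rw [h3]
    exact h1)
  rw [qcount_anti]
  have e : 1 / 10 ^ 74 * ε ^ 46 * (n : ℝ) ^ 4 = (ε ^ 46 * (n : ℝ) ^ 4) / 10 ^ 74 := by ring
  rw [e, div_le_iff₀ (by positivity)]
  linarith

/-- Polynomial removal for the block patterns and for the mirrored block patterns. -/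
theorem block_removal (k p q : ℕ) (hp : 0 < p) (hpk : p < k) (hq : 0 < q) (hqk : q < k) :
    ∃ c : ℝ, 0 < c ∧ ∀ (n : ℕ) (A : Fin n → Fin n → Bool) (ε : ℝ), 0 < ε → ε ≤ 1 →
      ((∀ B : Fin n → Fin n → Bool, Free (blockPattern k p q) B →
          ε * (n : ℝ) ^ 2 ≤ (entryDiff A B : ℝ)) →
        c * ε ^ (92 * k * (p * (k - p) * q * (k - q))) * (n : ℝ) ^ (2 * k)
          ≤ (copies (blockPattern k p q) A : ℝ)) ∧
      ((∀ B : Fin n → Fin n → Bool, Free (antiBlockPattern k p q) B →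
          ε * (n : ℝ) ^ 2 ≤ (entryDiff A B : ℝ)) →
        c * ε ^ (92 * k * (p * (k - p) * q * (k - q))) * (n : ℝ) ^ (2 * k)
          ≤ (copies (antiBlockPattern k p q) A : ℝ)) := by
  obtain ⟨c1, hc1, h1⟩ := blowup_removal idPat (1 / 10 ^ 74) (by positivity) 46 base_id
    k p q hp hpk hq hqk
  obtain ⟨c2, hc2, h2⟩ := blowup_removal antiPat (1 / 10 ^ 74) (by positivity) 46 base_anti
    k p q hp hpk hq hqk
  have hexp : 92 * k * (p * (k - p) * q * (k - q)) = 46 * (p * (k - p) * q * (k - q)) * (2 * k) := by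
    ring
  refine ⟨min c1 c2, lt_min hc1 hc2, ?_⟩
  intro n A ε hε hε1
  rw [hexp, blockPattern_eq, antiBlockPattern_eq]
  have hpow : 0 ≤ ε ^ (46 * (p * (k - p) * q * (k - q)) * (2 * k)) * (n : ℝ) ^ (2 * k) := by
    positivity
  constructor
  · intro hfar
    calc min c1 c2 * ε ^ (46 * (p * (k - p) * q * (k - q)) * (2 * k)) * (n : ℝ) ^ (2 * k)
        = min c1 c2 * (ε ^ (46 * (p * (k - p) * q * (k - q)) * (2 * k)) * (n : ℝ) ^ (2 * k)) := by
          ring
      _ ≤ c1 * (ε ^ (46 * (p * (k - p) * q * (k - q)) * (2 * k)) * (n : ℝ) ^ (2 * k)) :=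
          mul_le_mul_of_nonneg_right (min_le_left _ _) hpow
      _ = c1 * ε ^ (46 * (p * (k - p) * q * (k - q)) * (2 * k)) * (n : ℝ) ^ (2 * k) := by ring
      _ ≤ _ := h1 n A ε hε hε1 hfar
  · intro hfar
    calc min c1 c2 * ε ^ (46 * (p * (k - p) * q * (k - q)) * (2 * k)) * (n : ℝ) ^ (2 * k)
        = min c1 c2 * (ε ^ (46 * (p * (k - p) * q * (k - q)) * (2 * k)) * (n : ℝ) ^ (2 * k)) := by
          ring
      _ ≤ c2 * (ε ^ (46 * (p * (k - p) * q * (k - q)) * (2 * k)) * (n : ℝ) ^ (2 * k)) :=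
          mul_le_mul_of_nonneg_right (min_le_right _ _) hpow
      _ = c2 * ε ^ (46 * (p * (k - p) * q * (k - q)) * (2 * k)) * (n : ℝ) ^ (2 * k) := by ring
      _ ≤ _ := h2 n A ε hε hε1 hfar

end Vale.Agent.Lib.P037B
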