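import Mathlib
import Vale.Agent.Lib.P037B.Removal

/-!
# From a quadruple-form removal bound for a 2 x 2 pattern to the hand-in form

For a 2 x 2 pattern, ordered copies in the sense of `IsCopy` are the same as quadruple copies
in the sense of `Quad`; a quadruple-form removal bound with exponent 46 gives the removal bound
for the pattern itself (exponent 46) and for all of its blow-ups.
-/

namespace Vale.Agent.Lib.P037B

open Finset

theorem quad_of_isCopy_two {n : ℕ} {H₀ : Fin 2 → Fin 2 → Bool} {A : Fin n → Fin n → Bool}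
    {ρ γ : Fin 2 → Fin n} (h : IsCopy H₀ A ρ γ) : Quad H₀ A (ρ 0) (ρ 1) (γ 0) (γ 1) := by
  obtain ⟨hρ, hγ, hent⟩ := h
  exact ⟨hρ (by decide), hγ (by decide), hent 0 0, hent 0 1, hent 1 0, hent 1 1⟩

theorem isCopy_two_of_quad {n : ℕ} {H₀ : Fin 2 → Fin 2 → Bool} {A : Fin n → Fin n → Bool}
    {r1 r2 c1 c2 : Fin n} (h : Quad H₀ A r1 r2 c1 c2) :
    IsCopy H₀ A ![r1, r2] ![c1, c2] := by
  obtain ⟨hr, hc, h00, h01, h10, h11⟩ := h
  refine ⟨?_, ?_, ?_⟩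
  · intro a b hab
    fin_cases a <;> fin_cases b
    · exact absurd hab (lt_irrefl _)
    · simpa using hr
    · exact absurd hab (by decide)
    · exact absurd hab (lt_irrefl _)
  · intro a b hab
    fin_cases a <;> fin_cases b
    · exact absurd hab (lt_irrefl _)
    · simpa using hc
    · exact absurd hab (by decide)
    · exact absurd hab (lt_irrefl _)
  · intro i j
    fin_cases i <;> fin_cases j
    · simpa using h00
    · simpa using h01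
    · simpa using h10
    · simpa using h11

/-- A matrix with no quadruple copy of the 2 x 2 pattern `H₀` is `H₀`-free. -/
theorem free_two_of_qfree {n : ℕ} (H₀ : Fin 2 → Fin 2 → Bool) (B : Fin n → Fin n → Bool)
    (hB : ∀ r1 r2 c1 c2, ¬ Quad H₀ B r1 r2 c1 c2) : Free H₀ B :=
  fun _ _ hcopy => hB _ _ _ _ (quad_of_isCopy_two hcopy)

/-- Every quadruple copy of a 2 x 2 pattern is an ordered copy. -/
theorem qcount_le_copies_two {n : ℕ} (H₀ : Fin 2 → Fin 2 → Bool) (A : Fin n → Fin n → Bool) :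
    qcount H₀ A ≤ copies H₀ A := by
  unfold qcount copies
  apply Set.ncard_le_ncard_of_injOn
    (fun x : Fin n × Fin n × Fin n × Fin n =>
      ((![x.1, x.2.1], ![x.2.2.1, x.2.2.2]) : (Fin 2 → Fin n) × (Fin 2 → Fin n)))
  · intro x hx
    exact isCopy_two_of_quad hx
  · rintro ⟨a1, a2, a3, a4⟩ _ ⟨b1, b2, b3, b4⟩ _ h
    simp only [Prod.mk.injEq] at h
    obtain ⟨h1, h2⟩ := h
    have e1 := congrFun h1 0
    have e2 := congrFun h1 1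
    have e3 := congrFun h2 0
    have e4 := congrFun h2 1
    simp only [Matrix.cons_val_zero, Matrix.cons_val_one] at e1 e2 e3 e4
    simp [e1, e2, e3, e4]

/-- The master statement for one 2 x 2 pattern, from its quadruple-form removal bound with
constant `c₀` and exponent `C₀`: the removal bound for the pattern itself (same exponent) and for
all of its blow-ups. -/
theorem two_by_two_master_gen (H₀ : Fin 2 → Fin 2 → Bool) (c₀ : ℝ) (hc₀ : 0 < c₀) (C₀ : ℕ)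
    (h₀ : ∀ (n : ℕ) (A : Fin n → Fin n → Bool) (ε : ℝ), 0 < ε → ε ≤ 1 →
      (∀ B : Fin n → Fin n → Bool, (∀ r1 r2 c1 c2, ¬ Quad H₀ B r1 r2 c1 c2) →
        ε * (n : ℝ) ^ 2 ≤ (entryDiff A B : ℝ)) →
      c₀ * ε ^ C₀ * (n : ℝ) ^ 4 ≤ (qcount H₀ A : ℝ)) :
    (∃ c : ℝ, 0 < c ∧ ∀ (n : ℕ) (A : Fin n → Fin n → Bool) (ε : ℝ), 0 < ε → ε ≤ 1 →
      (∀ B : Fin n → Fin n → Bool, Free H₀ B → ε * (n : ℝ) ^ 2 ≤ (entryDiff A B : ℝ)) →
      c * ε ^ C₀ * (n : ℝ) ^ 4 ≤ (copies H₀ A : ℝ)) ∧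
    (∀ k p q : ℕ, 0 < p → p < k → 0 < q → q < k →
      ∃ c : ℝ, 0 < c ∧ ∀ (n : ℕ) (A : Fin n → Fin n → Bool) (ε : ℝ), 0 < ε → ε ≤ 1 →
        (∀ B : Fin n → Fin n → Bool, Free (blow H₀ k p q) B →
          ε * (n : ℝ) ^ 2 ≤ (entryDiff A B : ℝ)) →
        c * ε ^ (C₀ * (p * (k - p) * q * (k - q)) * (2 * k)) * (n : ℝ) ^ (2 * k)
          ≤ (copies (blow H₀ k p q) A : ℝ)) := by
  constructor
  · refine ⟨c₀, hc₀, ?_⟩
    intro n A ε hε hε1 hfar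
    have h1 := h₀ n A ε hε hε1 (fun B hB => hfar B (free_two_of_qfree H₀ B hB))
    have h2 : (qcount H₀ A : ℝ) ≤ (copies H₀ A : ℝ) := by
      exact_mod_cast qcount_le_copies_two H₀ A
    exact le_trans h1 h2
  · intro k p q hp hpk hq hqk
    exact blowup_removal H₀ c₀ hc₀ C₀ h₀ k p q hp hpk hq hqk

/-- The master statement for one 2 x 2 pattern, from its quadruple-form removal bound with
exponent 46. -/
theorem two_by_two_master (H₀ : Fin 2 → Fin 2 → Bool) (c₀ : ℝ) (hc₀ : 0 < c₀)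
    (h₀ : ∀ (n : ℕ) (A : Fin n → Fin n → Bool) (ε : ℝ), 0 < ε → ε ≤ 1 →
      (∀ B : Fin n → Fin n → Bool, (∀ r1 r2 c1 c2, ¬ Quad H₀ B r1 r2 c1 c2) →
        ε * (n : ℝ) ^ 2 ≤ (entryDiff A B : ℝ)) →
      c₀ * ε ^ 46 * (n : ℝ) ^ 4 ≤ (qcount H₀ A : ℝ)) :
    (∃ c : ℝ, 0 < c ∧ ∀ (n : ℕ) (A : Fin n → Fin n → Bool) (ε : ℝ), 0 < ε → ε ≤ 1 →
      (∀ B : Fin n → Fin n → Bool, Free H₀ B → ε * (n : ℝ) ^ 2 ≤ (entryDiff A B : ℝ)) →
      c * ε ^ 46 * (n : ℝ) ^ 4 ≤ (copies H₀ A : ℝ)) ∧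
    (∀ k p q : ℕ, 0 < p → p < k → 0 < q → q < k →
      ∃ c : ℝ, 0 < c ∧ ∀ (n : ℕ) (A : Fin n → Fin n → Bool) (ε : ℝ), 0 < ε → ε ≤ 1 →
        (∀ B : Fin n → Fin n → Bool, Free (blow H₀ k p q) B →
          ε * (n : ℝ) ^ 2 ≤ (entryDiff A B : ℝ)) →
        c * ε ^ (92 * k * (p * (k - p) * q * (k - q))) * (n : ℝ) ^ (2 * k)
          ≤ (copies (blow H₀ k p q) A : ℝ)) := by
  obtain ⟨h1, h2⟩ := two_by_two_master_gen H₀ c₀ hc₀ 46 h₀
  refine ⟨h1, ?_⟩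
  intro k p q hp hpk hq hqk
  obtain ⟨c, hc, h⟩ := h2 k p q hp hpk hq hqk
  have hexp : 92 * k * (p * (k - p) * q * (k - q)) = 46 * (p * (k - p) * q * (k - q)) * (2 * k) := by
    ring
  refine ⟨c, hc, ?_⟩
  intro n A ε hε hε1 hfar
  rw [hexp]
  exact h n A ε hε hε1 hfar

/-- The master statement with existential constants: a 2 x 2 pattern with some quadruple-form
polynomial removal bound has a polynomial removal bound, and so has each of its blow-ups. -/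
theorem two_by_two_master_ex (H₀ : Fin 2 → Fin 2 → Bool)
    (h₀ : ∃ c₀ : ℝ, 0 < c₀ ∧ ∃ C₀ : ℕ, ∀ (n : ℕ) (A : Fin n → Fin n → Bool) (ε : ℝ),
      0 < ε → ε ≤ 1 →
      (∀ B : Fin n → Fin n → Bool, (∀ r1 r2 c1 c2, ¬ Quad H₀ B r1 r2 c1 c2) →
        ε * (n : ℝ) ^ 2 ≤ (entryDiff A B : ℝ)) →
      c₀ * ε ^ C₀ * (n : ℝ) ^ 4 ≤ (qcount H₀ A : ℝ)) :
    (∃ c : ℝ, 0 < c ∧ ∃ C : ℕ, ∀ (n : ℕ) (A : Fin n → Fin n → Bool) (ε : ℝ), 0 < ε → ε ≤ 1 →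
      (∀ B : Fin n → Fin n → Bool, Free H₀ B → ε * (n : ℝ) ^ 2 ≤ (entryDiff A B : ℝ)) →
      c * ε ^ C * (n : ℝ) ^ 4 ≤ (copies H₀ A : ℝ)) ∧
    (∀ k p q : ℕ, 0 < p → p < k → 0 < q → q < k →
      ∃ c : ℝ, 0 < c ∧ ∃ C : ℕ, ∀ (n : ℕ) (A : Fin n → Fin n → Bool) (ε : ℝ), 0 < ε → ε ≤ 1 →
        (∀ B : Fin n → Fin n → Bool, Free (blow H₀ k p q) B →
          ε * (n : ℝ) ^ 2 ≤ (entryDiff A B : ℝ)) →
        c * ε ^ C * (n : ℝ) ^ (2 * k) ≤ (copies (blow H₀ k p q) A : ℝ)) := by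
  obtain ⟨c₀, hc₀, C₀, h⟩ := h₀
  obtain ⟨h1, h2⟩ := two_by_two_master_gen H₀ c₀ hc₀ C₀ h
  constructor
  · obtain ⟨c, hc, h1'⟩ := h1
    exact ⟨c, hc, C₀, h1'⟩
  · intro k p q hp hpk hq hqk
    obtain ⟨c, hc, h2'⟩ := h2 k p q hp hpk hq hqk
    exact ⟨c, hc, C₀ * (p * (k - p) * q * (k - q)) * (2 * k), h2'⟩

end Vale.Agent.Lib.P037B
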