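import Mathlib
import Vale.Agent.Lib.P037G.Clean

/-!
# Repairing rows: removing all pairs `x ... y` from a binary row

For Boolean values `x ≠ y`, a row `U` with `e` pairs of positions `a < b`, `U a = x`, `U b = y`
can be changed in at most `sqrt (5 e)` positions so that no such pair is left.
-/

namespace Vale.Agent.Lib.P037B

open Finset
open Classical

/-- The number of pairs of positions `a < b` of the row `U` with `U a = x` and `U b = y`. -/
noncomputable def rowPairs {n : ℕ} (x y : Bool) (U : Fin n → Bool) : ℕ :=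
  (univ.filter (fun p : Fin n × Fin n => p.1 < p.2 ∧ U p.1 = x ∧ U p.2 = y)).card

/-- The number of positions in which the rows `U` and `V` differ. -/
noncomputable def rowDiff {n : ℕ} (U V : Fin n → Bool) : ℕ :=
  (univ.filter (fun a : Fin n => U a ≠ V a)).card

/-- Row repair: if `x ≠ y`, every row `U` can be changed in `t` positions, `t^2 ≤ 5 e`, where
`e` is the number of pairs `a < b` with `U a = x`, `U b = y`, so that no such pair is left. -/
theorem row_repair_xy {n : ℕ} (x y : Bool) (hxy : x ≠ y) (U : Fin n → Bool) :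
    ∃ V : Fin n → Bool, (∀ a b, a < b → ¬ (V a = x ∧ V b = y)) ∧
      (rowDiff U V) ^ 2 ≤ 5 * rowPairs x y U := by
  obtain ⟨Z, hZcard, hZhit⟩ := Vale.Agent.Lib.P037G.cut_lemma
    (univ.filter (fun a : Fin n => U a = x)) (univ.filter (fun b : Fin n => U b = y))
  have hset : ((univ.filter (fun a : Fin n => U a = x)) ×ˢ
      (univ.filter (fun b : Fin n => U b = y))).filter (fun p => p.1 < p.2) =
      univ.filter (fun p : Fin n × Fin n => p.1 < p.2 ∧ U p.1 = x ∧ U p.2 = y) := by
    ext p
    simp only [mem_filter, mem_product, mem_univ, true_and]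
    tauto
  rw [hset] at hZcard
  refine ⟨fun a => if a ∈ Z then (if ∃ b, a < b ∧ b ∉ Z ∧ U b = y then y else x) else U a,
    ?_, ?_⟩
  · rintro a b hab ⟨ha, hb⟩
    -- a non-`Z` position right of `a` carrying `y`
    have key : ∃ b', a < b' ∧ b' ∉ Z ∧ U b' = y := by
      by_cases hbZ : b ∈ Z
      · simp only [hbZ, if_true] at hb
        by_cases hex : ∃ b', b < b' ∧ b' ∉ Z ∧ U b' = y
        · obtain ⟨b', h1, h2, h3⟩ := hex
          exact ⟨b', lt_trans hab h1, h2, h3⟩
        · rw [if_neg hex] at hb
          exact absurd hb hxy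
      · simp only [hbZ, if_false] at hb
        exact ⟨b, hab, hbZ, hb⟩
    obtain ⟨b', hab', hb'Z, hb'y⟩ := key
    by_cases haZ : a ∈ Z
    · simp only [haZ, if_true] at ha
      rw [if_pos ⟨b', hab', hb'Z, hb'y⟩] at ha
      exact hxy ha.symm
    · simp only [haZ, if_false] at ha
      rcases hZhit a (by simp [ha]) b' (by simp [hb'y]) hab' with h | h
      · exact haZ h
      · exact hb'Z h
  · have hsub : (univ.filter (fun a : Fin n => U a ≠
        (if a ∈ Z then (if ∃ b, a < b ∧ b ∉ Z ∧ U b = y then y else x) else U a))) ⊆ Z := by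
      intro a ha
      rw [mem_filter] at ha
      by_contra haZ
      simp only [haZ, if_false] at ha
      exact ha.2 rfl
    unfold rowDiff rowPairs
    calc _ ≤ Z.card ^ 2 := Nat.pow_le_pow_left (card_le_card hsub) 2
      _ ≤ _ := hZcard

/-- Matrix form of `row_repair_xy`: all rows repaired at once. -/
theorem rows_repair_xy {n : ℕ} (x y : Bool) (hxy : x ≠ y) (A : Fin n → Fin n → Bool) :
    ∃ B : Fin n → Fin n → Bool, (∀ r a b, a < b → ¬ (B r a = x ∧ B r b = y)) ∧
      ∀ r, (rowDiff (A r) (B r)) ^ 2 ≤ 5 * rowPairs x y (A r) := by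
  choose V hV1 hV2 using fun r => row_repair_xy x y hxy (A r)
  exact ⟨V, hV1, hV2⟩

/-- The number of differing entries is the sum of the row differences. -/
theorem entryDiff_eq_sum_rowDiff {n : ℕ} (A B : Fin n → Fin n → Bool) :
    entryDiff A B = ∑ r, rowDiff (A r) (B r) := by
  unfold entryDiff rowDiff
  rw [card_filter, Fintype.sum_prod_type]
  apply sum_congr rfl
  intro r _
  rw [card_filter]

end Vale.Agent.Lib.P037B
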