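import Mathlib
import Vale.Agent.Lib.P037B.RowRepair
import Vale.Agent.Lib.P037B.QRem

/-!
# Counting copies of a 2 x 2 pattern with two equal rows

For the pattern `[[x, y], [x, y]]` the number of quadruple copies in `A` is controlled from below
by the total number `S` of pairs `x ... y` in the rows of `A`: `S^2 ≤ n^2 (2 N + S)`.  If `x ≠ y`
and `A` is `ε`-far from being free of the pattern, then `ε^2 n^3 ≤ 5 S`.
-/

namespace Vale.Agent.Lib.P037B

open Finset
open Classical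

/-- For a finite set `F` in a linear order, `|F|^2 = 2 #{(a, b) ∈ F × F : a < b} + |F|`. -/
theorem card_sq_eq_two_mul {α : Type*} [LinearOrder α] (F : Finset α) :
    F.card ^ 2 = 2 * ((F ×ˢ F).filter (fun q => q.1 < q.2)).card + F.card := by
  have h1 : (F ×ˢ F).card = ((F ×ˢ F).filter (fun q => q.1 < q.2)).card +
      ((F ×ˢ F).filter (fun q => ¬ q.1 < q.2)).card :=
    (Finset.card_filter_add_card_filter_not _).symm
  have h2 : ((F ×ˢ F).filter (fun q => ¬ q.1 < q.2)).card =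
      (((F ×ˢ F).filter (fun q => ¬ q.1 < q.2)).filter (fun q => q.2 < q.1)).card +
      (((F ×ˢ F).filter (fun q => ¬ q.1 < q.2)).filter (fun q => ¬ q.2 < q.1)).card :=
    (Finset.card_filter_add_card_filter_not _).symm
  have h3 : (((F ×ˢ F).filter (fun q => ¬ q.1 < q.2)).filter (fun q => q.2 < q.1)).card =
      ((F ×ˢ F).filter (fun q => q.1 < q.2)).card := by
    apply Finset.card_equiv (Equiv.prodComm α α)
    intro q
    simp only [mem_filter, mem_product, Equiv.prodComm_apply, Prod.fst_swap, Prod.snd_swap]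
    constructor
    · rintro ⟨⟨⟨ha, hb⟩, _⟩, hlt⟩
      exact ⟨⟨hb, ha⟩, hlt⟩
    · rintro ⟨⟨ha, hb⟩, hlt⟩
      exact ⟨⟨⟨hb, ha⟩, not_lt.mpr hlt.le⟩, hlt⟩
  have h4 : (((F ×ˢ F).filter (fun q => ¬ q.1 < q.2)).filter (fun q => ¬ q.2 < q.1)).card =
      F.card := by
    symm
    apply Finset.card_bij (fun a _ => (a, a))
    · intro a ha
      simp only [mem_filter, mem_product]
      exact ⟨⟨⟨ha, ha⟩, lt_irrefl a⟩, lt_irrefl a⟩
    · intro a _ b _ h
      exact (Prod.mk.inj h).1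
    · rintro ⟨a, b⟩ hq
      simp only [mem_filter, mem_product] at hq
      obtain ⟨⟨⟨ha, _⟩, h1⟩, h2⟩ := hq
      have hab : a = b := le_antisymm (not_lt.mp h2) (not_lt.mp h1)
      exact ⟨a, ha, by rw [hab]⟩
  have h5 : (F ×ˢ F).card = F.card ^ 2 := by rw [card_product, sq]
  omega

/-- The rows of `A` that carry the pair `x ... y` in the columns `p.1 < p.2`. -/
noncomputable def pairRows {n : ℕ} (x y : Bool) (A : Fin n → Fin n → Bool)
    (p : Fin n × Fin n) : Finset (Fin n) :=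
  univ.filter (fun r => p.1 < p.2 ∧ A r p.1 = x ∧ A r p.2 = y)

theorem sum_pairRows_card {n : ℕ} (x y : Bool) (A : Fin n → Fin n → Bool) :
    ∑ p, (pairRows x y A p).card = ∑ r, rowPairs x y (A r) := by
  unfold pairRows rowPairs
  simp only [card_filter]
  exact Finset.sum_comm

theorem quad_rowsEq_xy_iff {n : ℕ} (x y : Bool) (A : Fin n → Fin n → Bool) (r1 r2 c1 c2 : Fin n) :
    Quad (fun _ j => if j = 0 then x else y) A r1 r2 c1 c2 ↔
      r1 < r2 ∧ c1 < c2 ∧ A r1 c1 = x ∧ A r1 c2 = y ∧ A r2 c1 = x ∧ A r2 c2 = y := by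
  unfold Quad
  simp

theorem sum_pairRows_lt_le {n : ℕ} (x y : Bool) (A : Fin n → Fin n → Bool) :
    ∑ p, (((pairRows x y A p) ×ˢ (pairRows x y A p)).filter (fun q => q.1 < q.2)).card ≤
      qcount (fun _ j => if j = 0 then x else y) A := by
  unfold qcount
  rw [ncard_eq_card_filter]
  rw [Finset.card_eq_sum_card_fiberwise (f := fun z : Fin n × Fin n × Fin n × Fin n =>
    ((z.2.2.1, z.2.2.2) : Fin n × Fin n)) (t := univ) (fun z _ => by simp)]
  apply Finset.sum_le_sum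
  intro p _
  apply Finset.card_le_card_of_injOn (fun q => (q.1, q.2, p.1, p.2))
  · intro q hq
    rw [Finset.mem_coe, mem_filter, mem_product] at hq
    obtain ⟨⟨h1, h2⟩, hlt⟩ := hq
    unfold pairRows at h1 h2
    rw [mem_filter] at h1 h2
    rw [Finset.mem_coe, mem_filter, mem_filter]
    refine ⟨⟨mem_univ _, ?_⟩, rfl⟩
    rw [quad_rowsEq_xy_iff]
    exact ⟨hlt, h1.2.1, h1.2.2.1, h1.2.2.2, h2.2.2.1, h2.2.2.2⟩
  · intro q _ q' _ h
    simp only [Prod.mk.injEq] at h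
    exact Prod.ext h.1 h.2.1

/-- Double counting and the Cauchy-Schwarz inequality over the pairs of columns: with `S` the
total number of pairs `x ... y` in the rows of `A` and `N` the number of quadruple copies of the
pattern `[[x, y], [x, y]]`, one has `S^2 ≤ n^2 (2 N + S)`. -/
theorem rowsEq_count {n : ℕ} (x y : Bool) (A : Fin n → Fin n → Bool) :
    (∑ r, rowPairs x y (A r)) ^ 2 ≤
      n ^ 2 * (2 * qcount (fun _ j => if j = 0 then x else y) A + ∑ r, rowPairs x y (A r)) := by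
  rw [← sum_pairRows_card]
  have hcs : (∑ p : Fin n × Fin n, (pairRows x y A p).card) ^ 2 ≤
      (univ : Finset (Fin n × Fin n)).card * ∑ p : Fin n × Fin n, (pairRows x y A p).card ^ 2 :=
    sq_sum_le_card_mul_sum_sq
  have hcard : (univ : Finset (Fin n × Fin n)).card = n ^ 2 := by
    rw [Finset.card_univ, Fintype.card_prod, Fintype.card_fin, sq]
  have hsq : ∑ p : Fin n × Fin n, (pairRows x y A p).card ^ 2 =
      2 * ∑ p, (((pairRows x y A p) ×ˢ (pairRows x y A p)).filter (fun q => q.1 < q.2)).card +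
        ∑ p, (pairRows x y A p).card := by
    rw [Finset.mul_sum, ← Finset.sum_add_distrib]
    apply Finset.sum_congr rfl
    intro p _
    exact card_sq_eq_two_mul _
  rw [hcard, hsq] at hcs
  refine hcs.trans (Nat.mul_le_mul_left _ ?_)
  have := sum_pairRows_lt_le x y A
  omega

/-- If `x ≠ y` and every matrix free of the pattern `[[x, y], [x, y]]` differs from `A` in at
least `ε n^2` entries, then the rows of `A` carry at least `ε^2 n^3 / 5` pairs `x ... y`. -/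
theorem rowsEq_far {n : ℕ} (x y : Bool) (hxy : x ≠ y) (A : Fin n → Fin n → Bool) (ε : ℝ)
    (hε : 0 ≤ ε)
    (hfar : ∀ B : Fin n → Fin n → Bool,
      (∀ r1 r2 c1 c2, ¬ Quad (fun _ j => if j = 0 then x else y) B r1 r2 c1 c2) →
      ε * (n : ℝ) ^ 2 ≤ (entryDiff A B : ℝ)) :
    ε ^ 2 * (n : ℝ) ^ 3 ≤ 5 * ((∑ r, rowPairs x y (A r) : ℕ) : ℝ) := by
  obtain ⟨B, hB1, hB2⟩ := rows_repair_xy x y hxy A
  have hfree : ∀ r1 r2 c1 c2, ¬ Quad (fun _ j => if j = 0 then x else y) B r1 r2 c1 c2 := by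
    intro r1 r2 c1 c2 hq
    rw [quad_rowsEq_xy_iff] at hq
    exact hB1 r1 c1 c2 hq.2.1 ⟨hq.2.2.1, hq.2.2.2.1⟩
  have h1 := hfar B hfree
  rw [entryDiff_eq_sum_rowDiff] at h1
  -- Cauchy-Schwarz over the rows, in the naturals
  have hcs : (∑ r : Fin n, rowDiff (A r) (B r)) ^ 2 ≤
      (univ : Finset (Fin n)).card * ∑ r : Fin n, rowDiff (A r) (B r) ^ 2 :=
    sq_sum_le_card_mul_sum_sq
  rw [Finset.card_univ, Fintype.card_fin] at hcs
  have hsum : ∑ r : Fin n, rowDiff (A r) (B r) ^ 2 ≤ 5 * ∑ r, rowPairs x y (A r) := by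
    rw [Finset.mul_sum]
    exact Finset.sum_le_sum (fun r _ => hB2 r)
  have hnat : (∑ r : Fin n, rowDiff (A r) (B r)) ^ 2 ≤ n * (5 * ∑ r, rowPairs x y (A r)) :=
    hcs.trans (Nat.mul_le_mul_left _ hsum)
  have hreal : ((∑ r : Fin n, rowDiff (A r) (B r) : ℕ) : ℝ) ^ 2 ≤
      (n : ℝ) * (5 * ((∑ r, rowPairs x y (A r) : ℕ) : ℝ)) := by
    exact_mod_cast hnat
  have h2 : (ε * (n : ℝ) ^ 2) ^ 2 ≤ ((∑ r : Fin n, rowDiff (A r) (B r) : ℕ) : ℝ) ^ 2 :=
    pow_le_pow_left₀ (by positivity) h1 2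
  have h3 : (ε * (n : ℝ) ^ 2) ^ 2 ≤ (n : ℝ) * (5 * ((∑ r, rowPairs x y (A r) : ℕ) : ℝ)) :=
    h2.trans hreal
  rcases Nat.eq_zero_or_pos n with hn | hn
  · subst hn
    simp
  · have hnpos : (0 : ℝ) < (n : ℝ) := by exact_mod_cast hn
    have h4 : (n : ℝ) * (ε ^ 2 * (n : ℝ) ^ 3) ≤
        (n : ℝ) * (5 * ((∑ r, rowPairs x y (A r) : ℕ) : ℝ)) := by
      calc (n : ℝ) * (ε ^ 2 * (n : ℝ) ^ 3) = (ε * (n : ℝ) ^ 2) ^ 2 := by ring
        _ ≤ _ := h3
    exact le_of_mul_le_mul_left h4 hnpos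

end Vale.Agent.Lib.P037B
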