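import Mathlib
import Vale.Agent.Lib.P037B.RowCount

/-!
# Polynomial removal for the 2 x 2 patterns with two equal non-constant rows

For `x ≠ y` the pattern `[[x, y], [x, y]]` satisfies the quadruple removal bound with constant
`1 / 10000` and exponent `8`.
-/

namespace Vale.Agent.Lib.P037B

open Finset
open Classical

theorem entryDiff_self_eq_zero {n : ℕ} (A : Fin n → Fin n → Bool) : entryDiff A A = 0 := by
  unfold entryDiff
  simp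

/-- A matrix that is far from the matrices without quadruple copies has a quadruple copy. -/
theorem one_le_qcount_of_far {n : ℕ} (H0 : Fin 2 → Fin 2 → Bool) (A : Fin n → Fin n → Bool)
    (ε : ℝ) (hε : 0 < ε) (hn : 0 < n)
    (hfar : ∀ B : Fin n → Fin n → Bool, (∀ r1 r2 c1 c2, ¬ Quad H0 B r1 r2 c1 c2) →
      ε * (n : ℝ) ^ 2 ≤ (entryDiff A B : ℝ)) :
    1 ≤ qcount H0 A := by
  by_contra hlt
  have h0 : qcount H0 A = 0 := by omega
  unfold qcount at h0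
  rw [Set.ncard_eq_zero (Set.toFinite _)] at h0
  have hfree : ∀ r1 r2 c1 c2, ¬ Quad H0 A r1 r2 c1 c2 := by
    intro r1 r2 c1 c2 hq
    have hmem : (r1, r2, c1, c2) ∈
        {x : Fin n × Fin n × Fin n × Fin n | Quad H0 A x.1 x.2.1 x.2.2.1 x.2.2.2} := hq
    rw [h0] at hmem
    exact hmem
  have h1 := hfar A hfree
  rw [entryDiff_self_eq_zero] at h1
  have hnpos : (0 : ℝ) < (n : ℝ) := by exact_mod_cast hn
  have h2 : 0 < ε * (n : ℝ) ^ 2 := by positivity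
  simp only [Nat.cast_zero] at h1
  linarith

/-- The quadruple removal bound for the pattern `[[x, y], [x, y]]` with `x ≠ y`. -/
theorem qrem_rowsEq_ne (x y : Bool) (hxy : x ≠ y) :
    QRem (fun _ j => if j = 0 then x else y) (1 / 10000) 8 := by
  intro n A ε hε hε1 hfar
  rcases Nat.eq_zero_or_pos n with hn | hn
  · subst hn
    simp
  have hnpos : (0 : ℝ) < (n : ℝ) := by exact_mod_cast hn
  have hfar' := rowsEq_far x y hxy A ε hε.le hfar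
  have hcount := rowsEq_count x y A
  have hone := one_le_qcount_of_far _ A ε hε hn hfar
  obtain ⟨S, hS⟩ : ∃ S : ℕ, S = ∑ r, rowPairs x y (A r) := ⟨_, rfl⟩
  obtain ⟨N, hN⟩ : ∃ N : ℕ, N = qcount (fun _ j => if j = 0 then x else y) A := ⟨_, rfl⟩
  rw [← hS] at hfar' hcount
  rw [← hN] at hcount hone ⊢
  have hcountR : (S : ℝ) ^ 2 ≤ (n : ℝ) ^ 2 * (2 * (N : ℝ) + (S : ℝ)) := by exact_mod_cast hcount
  have hN1 : (1 : ℝ) ≤ (N : ℝ) := by exact_mod_cast hone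
  have hS0 : (0 : ℝ) ≤ (S : ℝ) := Nat.cast_nonneg S
  have hε8 : ε ^ 8 ≤ ε ^ 4 := pow_le_pow_of_le_one hε.le hε1 (by norm_num)
  have hε4pos : 0 < ε ^ 4 := by positivity
  by_cases hbig : 2 * (n : ℝ) ^ 2 ≤ (S : ℝ)
  · -- many pairs: `N ≥ S^2 / (4 n^2) ≥ ε^4 n^4 / 100`
    have h1 : (S : ℝ) ^ 2 ≤ 4 * (n : ℝ) ^ 2 * (N : ℝ) := by nlinarith
    have h2 : (ε ^ 2 * (n : ℝ) ^ 3) ^ 2 ≤ (5 * (S : ℝ)) ^ 2 :=
      pow_le_pow_left₀ (by positivity) hfar' 2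
    have h3 : ε ^ 4 * (n : ℝ) ^ 6 ≤ 100 * (n : ℝ) ^ 2 * (N : ℝ) := by nlinarith
    have h4 : (n : ℝ) ^ 2 * (ε ^ 4 * (n : ℝ) ^ 4) ≤ (n : ℝ) ^ 2 * (100 * (N : ℝ)) := by
      calc (n : ℝ) ^ 2 * (ε ^ 4 * (n : ℝ) ^ 4) = ε ^ 4 * (n : ℝ) ^ 6 := by ring
        _ ≤ 100 * (n : ℝ) ^ 2 * (N : ℝ) := h3
        _ = (n : ℝ) ^ 2 * (100 * (N : ℝ)) := by ring
    have h5 : ε ^ 4 * (n : ℝ) ^ 4 ≤ 100 * (N : ℝ) := le_of_mul_le_mul_left h4 (by positivity)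
    have h6 : ε ^ 8 * (n : ℝ) ^ 4 ≤ ε ^ 4 * (n : ℝ) ^ 4 :=
      mul_le_mul_of_nonneg_right hε8 (by positivity)
    calc 1 / 10000 * ε ^ 8 * (n : ℝ) ^ 4 = (ε ^ 8 * (n : ℝ) ^ 4) / 10000 := by ring
      _ ≤ (100 * (N : ℝ)) / 10000 := by
          apply div_le_div_of_nonneg_right (h6.trans h5) (by norm_num)
      _ ≤ (N : ℝ) := by linarith
  · -- few pairs: `ε^2 n < 10`, so the bound is below `1 ≤ N`
    push Not at hbig
    have h1 : ε ^ 2 * (n : ℝ) ^ 3 < 10 * (n : ℝ) ^ 2 := by linarith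
    have h2 : (n : ℝ) ^ 2 * (ε ^ 2 * (n : ℝ)) < (n : ℝ) ^ 2 * 10 := by
      calc (n : ℝ) ^ 2 * (ε ^ 2 * (n : ℝ)) = ε ^ 2 * (n : ℝ) ^ 3 := by ring
        _ < 10 * (n : ℝ) ^ 2 := h1
        _ = (n : ℝ) ^ 2 * 10 := by ring
    have h3 : ε ^ 2 * (n : ℝ) < 10 := lt_of_mul_lt_mul_left h2 (by positivity)
    have h4 : (ε ^ 2 * (n : ℝ)) ^ 4 ≤ 10 ^ 4 := pow_le_pow_left₀ (by positivity) h3.le 4
    calc 1 / 10000 * ε ^ 8 * (n : ℝ) ^ 4 = (ε ^ 2 * (n : ℝ)) ^ 4 / 10000 := by ring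
      _ ≤ 10 ^ 4 / 10000 := div_le_div_of_nonneg_right h4 (by norm_num)
      _ = 1 := by norm_num
      _ ≤ (N : ℝ) := hN1

/-- The quadruple removal bound for the pattern `[[x, !x], [x, !x]]`. -/
theorem qrem_rowsEq_not (x : Bool) :
    QRem (fun _ j => if j = 0 then x else !x) (1 / 10000) 8 :=
  qrem_rowsEq_ne x (!x) (by cases x <;> simp)

end Vale.Agent.Lib.P037B
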