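import Mathlib
import Vale.Agent.Lib.P037B.QRem

/-!
# Transfer of a removal bound under complementation (exchange of zeros and ones)
-/

namespace Vale.Agent.Lib.P037B

theorem quad_compl_iff {n : ℕ} (H0 : Fin 2 → Fin 2 → Bool) (A : Fin n → Fin n → Bool)
    (r1 r2 c1 c2 : Fin n) :
    Quad (fun i j => !(H0 i j)) A r1 r2 c1 c2 ↔ Quad H0 (fun r c => !(A r c)) r1 r2 c1 c2 := by
  have key : ∀ a b : Bool, (a = !b) ↔ ((!a) = b) := by decide
  unfold Quad
  simp only [key]

theorem entryDiff_compl {n : ℕ} (A B : Fin n → Fin n → Bool) :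
    entryDiff (fun r c => !(A r c)) (fun r c => !(B r c)) = entryDiff A B := by
  have key : ∀ a b : Bool, ((!a) ≠ (!b)) ↔ (a ≠ b) := by decide
  unfold entryDiff
  simp only [key]

theorem qcount_compl {n : ℕ} (H0 : Fin 2 → Fin 2 → Bool) (A : Fin n → Fin n → Bool) :
    qcount (fun i j => !(H0 i j)) A = qcount H0 (fun r c => !(A r c)) := by
  unfold qcount
  simp only [quad_compl_iff]

/-- A removal bound for `H0` gives the same bound for the complementary pattern. -/
theorem qrem_compl {H0 : Fin 2 → Fin 2 → Bool} {c : ℝ} {C : ℕ} (h : QRem H0 c C) :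
    QRem (fun i j => !(H0 i j)) c C := by
  refine qrem_transfer (fun _ A => fun r c => !(A r c)) ?_ ?_ ?_ ?_ h
  · intro n A
    funext r c
    simp
  · intro n A B
    exact entryDiff_compl A B
  · intro n A
    exact qcount_compl H0 A
  · intro n B hB r1 r2 c1 c2 hq
    rw [quad_compl_iff] at hq
    have h1 : (fun r c => !(!(B r c))) = B := by
      funext r c
      simp
    rw [h1] at hq
    exact hB r1 r2 c1 c2 hq

end Vale.Agent.Lib.P037B
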