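import Mathlib
import Vale.Agent.Lib.P037B.Main
import Vale.Agent.Lib.P037B.QRem

/-!
# Row reversal and column reversal transfer a removal bound

If the 2 x 2 pattern `H0` has the removal bound `QRem H0 c C`, then so do the pattern with its two
columns exchanged and the pattern with its two rows exchanged, with the same constants.  The proof
reverses the order of the columns (rows) of the host matrix and applies `qrem_transfer`.
-/

namespace Vale.Agent.Lib.P037B

/-- Reverse the row order of a matrix. -/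
def revRows {n : ℕ} (A : Fin n → Fin n → Bool) : Fin n → Fin n → Bool :=
  fun r c => A (Fin.rev r) c

theorem revRows_revRows {n : ℕ} (A : Fin n → Fin n → Bool) : revRows (revRows A) = A := by
  funext r c
  unfold revRows
  rw [Fin.rev_rev]

theorem entryDiff_revRows {n : ℕ} (A B : Fin n → Fin n → Bool) :
    entryDiff (revRows A) (revRows B) = entryDiff A B := by
  unfold entryDiff
  apply Finset.card_equiv (Equiv.prodCongr Fin.revPerm (Equiv.refl (Fin n)))
  intro x
  simp only [Finset.mem_filter, Finset.mem_univ, true_and]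
  exact Iff.rfl

/-- A quadruple copy of the column-swapped pattern in `A` is a quadruple copy of the pattern in
the column-reversed matrix. -/
theorem quad_swapCols_iff {n : ℕ} (H0 : Fin 2 → Fin 2 → Bool) (A : Fin n → Fin n → Bool)
    (r1 r2 c1 c2 : Fin n) :
    Quad (fun i j => H0 i (Fin.rev j)) A r1 r2 c1 c2 ↔
      Quad H0 (revCols A) r1 r2 (Fin.rev c2) (Fin.rev c1) := by
  have e0 : Fin.rev (0 : Fin 2) = 1 := by decide
  have e1 : Fin.rev (1 : Fin 2) = 0 := by decide
  unfold Quad revCols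
  simp only [Fin.rev_rev, Fin.rev_lt_rev, e0, e1]
  tauto

/-- A quadruple copy of the row-swapped pattern in `A` is a quadruple copy of the pattern in
the row-reversed matrix. -/
theorem quad_swapRows_iff {n : ℕ} (H0 : Fin 2 → Fin 2 → Bool) (A : Fin n → Fin n → Bool)
    (r1 r2 c1 c2 : Fin n) :
    Quad (fun i j => H0 (Fin.rev i) j) A r1 r2 c1 c2 ↔
      Quad H0 (revRows A) (Fin.rev r2) (Fin.rev r1) c1 c2 := by
  have e0 : Fin.rev (0 : Fin 2) = 1 := by decide
  have e1 : Fin.rev (1 : Fin 2) = 0 := by decide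
  unfold Quad revRows
  simp only [Fin.rev_rev, Fin.rev_lt_rev, e0, e1]
  tauto

theorem qcount_swapCols {n : ℕ} (H0 : Fin 2 → Fin 2 → Bool) (A : Fin n → Fin n → Bool) :
    qcount (fun i j => H0 i (Fin.rev j)) A = qcount H0 (revCols A) := by
  unfold qcount
  have hinj : Function.Injective (fun y : Fin n × Fin n × Fin n × Fin n =>
      ((y.1, y.2.1, Fin.rev y.2.2.2, Fin.rev y.2.2.1) : Fin n × Fin n × Fin n × Fin n)) := by
    rintro ⟨a1, a2, a3, a4⟩ ⟨b1, b2, b3, b4⟩ h
    simp only [Prod.mk.injEq, Fin.rev_inj] at h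
    obtain ⟨h1, h2, h3, h4⟩ := h
    rw [h1, h2, h3, h4]
  rw [← Set.ncard_image_of_injective
    {x : Fin n × Fin n × Fin n × Fin n | Quad H0 (revCols A) x.1 x.2.1 x.2.2.1 x.2.2.2} hinj]
  congr 1
  ext x
  constructor
  · intro hx
    refine ⟨(x.1, x.2.1, Fin.rev x.2.2.2, Fin.rev x.2.2.1), ?_, ?_⟩
    · exact (quad_swapCols_iff H0 A _ _ _ _).mp hx
    · simp
  · rintro ⟨y, hy, rfl⟩
    apply (quad_swapCols_iff H0 A _ _ _ _).mpr
    simp only [Fin.rev_rev]
    exact hy

theorem qcount_swapRows {n : ℕ} (H0 : Fin 2 → Fin 2 → Bool) (A : Fin n → Fin n → Bool) :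
    qcount (fun i j => H0 (Fin.rev i) j) A = qcount H0 (revRows A) := by
  unfold qcount
  have hinj : Function.Injective (fun y : Fin n × Fin n × Fin n × Fin n =>
      ((Fin.rev y.2.1, Fin.rev y.1, y.2.2.1, y.2.2.2) : Fin n × Fin n × Fin n × Fin n)) := by
    rintro ⟨a1, a2, a3, a4⟩ ⟨b1, b2, b3, b4⟩ h
    simp only [Prod.mk.injEq, Fin.rev_inj] at h
    obtain ⟨h1, h2, h3, h4⟩ := h
    rw [h1, h2, h3, h4]
  rw [← Set.ncard_image_of_injective
    {x : Fin n × Fin n × Fin n × Fin n | Quad H0 (revRows A) x.1 x.2.1 x.2.2.1 x.2.2.2} hinj]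
  congr 1
  ext x
  constructor
  · intro hx
    refine ⟨(Fin.rev x.2.1, Fin.rev x.1, x.2.2.1, x.2.2.2), ?_, ?_⟩
    · exact (quad_swapRows_iff H0 A _ _ _ _).mp hx
    · simp
  · rintro ⟨y, hy, rfl⟩
    apply (quad_swapRows_iff H0 A _ _ _ _).mpr
    simp only [Fin.rev_rev]
    exact hy

/-- Exchanging the two columns of the pattern keeps the removal bound, with the same constants. -/
theorem qrem_swapCols {H0 : Fin 2 → Fin 2 → Bool} {c : ℝ} {C : ℕ} (h : QRem H0 c C) :
    QRem (fun i j => H0 i (Fin.rev j)) c C := by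
  refine qrem_transfer (fun _ A => revCols A) (fun _ A => revCols_revCols A)
    (fun _ A B => entryDiff_revCols A B) (fun _ A => qcount_swapCols H0 A) ?_ h
  intro n B hB r1 r2 c1 c2 hq
  have h2 := (quad_swapCols_iff H0 (revCols B) r1 r2 c1 c2).mp hq
  rw [revCols_revCols] at h2
  exact hB _ _ _ _ h2

/-- Exchanging the two rows of the pattern keeps the removal bound, with the same constants. -/
theorem qrem_swapRows {H0 : Fin 2 → Fin 2 → Bool} {c : ℝ} {C : ℕ} (h : QRem H0 c C) :
    QRem (fun i j => H0 (Fin.rev i) j) c C := by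
  refine qrem_transfer (fun _ A => revRows A) (fun _ A => revRows_revRows A)
    (fun _ A B => entryDiff_revRows A B) (fun _ A => qcount_swapRows H0 A) ?_ h
  intro n B hB r1 r2 c1 c2 hq
  have h2 := (quad_swapRows_iff H0 (revRows B) r1 r2 c1 c2).mp hq
  rw [revRows_revRows] at h2
  exact hB _ _ _ _ h2

end Vale.Agent.Lib.P037B
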