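import Mathlib
import Vale.Agent.Lib.P037B.Main
import Vale.Agent.Lib.P037B.QRem
import Vale.Agent.Lib.P037B.SymRev
import Vale.Agent.Lib.P037B.SymCompl

/-!
# All 2 x 2 patterns with distinct rows and distinct columns

From the removal bound for the corner pattern `[[0,1],[1,1]]` (a hypothesis here), the bounds for
`[[1,0],[0,1]]` and `[[0,1],[1,0]]`, and the symmetries (column reversal, row reversal,
complement), every 2 x 2 pattern whose two rows differ and whose two columns differ satisfies
the quadruple removal bound with exponent 46.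
-/

namespace Vale.Agent.Lib.P037B

/-- The 2 x 2 pattern with rows `(a, b)` and `(c, d)`. -/
def pat (a b c d : Bool) : Fin 2 → Fin 2 → Bool := ![![a, b], ![c, d]]

theorem eq_pat (H0 : Fin 2 → Fin 2 → Bool) : H0 = pat (H0 0 0) (H0 0 1) (H0 1 0) (H0 1 1) := by
  funext i j
  fin_cases i <;> fin_cases j <;> rfl

theorem qrem_idPat : QRem idPat (1 / 10 ^ 74) 46 :=
  fun n A ε hε hε1 hfar => base_id n A ε hε hε1 hfar

theorem qrem_antiPat : QRem antiPat (1 / 10 ^ 74) 46 :=
  fun n A ε hε hε1 hfar => base_anti n A ε hε hε1 hfar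

/-- The removal bound (exponent 46) for the pattern with rows `(a, b)`, `(c, d)`, when the rows
differ and the columns differ, given the bound for the corner pattern `[[0,1],[1,1]]`. -/
theorem pat_base (cG : ℝ) (hcG : 0 < cG) (CG : ℕ) (hCG : CG ≤ 46)
    (hG : QRem ![![false, true], ![true, true]] cG CG) (a b c d : Bool)
    (hrows : ¬ (a = c ∧ b = d)) (hcols : ¬ (a = b ∧ c = d)) :
    ∃ c' : ℝ, 0 < c' ∧ QRem (pat a b c d) c' 46 := by
  have hG46 : QRem ![![false, true], ![true, true]] cG 46 := qrem_mono hG hcG le_rfl hCG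
  cases a <;> cases b <;> cases c <;> cases d
  -- (0,0,0,0)
  · exact absurd ⟨rfl, rfl⟩ hrows
  -- (0,0,0,1)
  · have e : pat false false false true
        = (fun i j => !((fun i j => (fun i j =>
            (![![false, true], ![true, true]] : Fin 2 → Fin 2 → Bool) i (Fin.rev j))
              (Fin.rev i) j) i j)) := by
      funext i j
      fin_cases i <;> fin_cases j <;> rfl
    rw [e]
    exact ⟨cG, hcG, qrem_compl (qrem_swapRows (qrem_swapCols hG46))⟩
  -- (0,0,1,0)
  · have e : pat false false true false
        = (fun i j => !((fun i j =>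
            (![![false, true], ![true, true]] : Fin 2 → Fin 2 → Bool) (Fin.rev i) j) i j)) := by
      funext i j
      fin_cases i <;> fin_cases j <;> rfl
    rw [e]
    exact ⟨cG, hcG, qrem_compl (qrem_swapRows hG46)⟩
  -- (0,0,1,1)
  · exact absurd ⟨rfl, rfl⟩ hcols
  -- (0,1,0,0)
  · have e : pat false true false false
        = (fun i j => !((fun i j =>
            (![![false, true], ![true, true]] : Fin 2 → Fin 2 → Bool) i (Fin.rev j)) i j)) := by
      funext i j
      fin_cases i <;> fin_cases j <;> rfl
    rw [e]
    exact ⟨cG, hcG, qrem_compl (qrem_swapCols hG46)⟩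
  -- (0,1,0,1)
  · exact absurd ⟨rfl, rfl⟩ hrows
  -- (0,1,1,0)
  · have e : pat false true true false = antiPat := by
      funext i j
      fin_cases i <;> fin_cases j <;> rfl
    rw [e]
    exact ⟨1 / 10 ^ 74, by positivity, qrem_antiPat⟩
  -- (0,1,1,1)
  · exact ⟨cG, hcG, hG46⟩
  -- (1,0,0,0)
  · have e : pat true false false false
        = (fun i j => !((![![false, true], ![true, true]] : Fin 2 → Fin 2 → Bool) i j)) := by
      funext i j
      fin_cases i <;> fin_cases j <;> rfl
    rw [e]
    exact ⟨cG, hcG, qrem_compl hG46⟩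
  -- (1,0,0,1)
  · have e : pat true false false true = idPat := by
      funext i j
      fin_cases i <;> fin_cases j <;> rfl
    rw [e]
    exact ⟨1 / 10 ^ 74, by positivity, qrem_idPat⟩
  -- (1,0,1,0)
  · exact absurd ⟨rfl, rfl⟩ hrows
  -- (1,0,1,1)
  · have e : pat true false true true
        = (fun i j => (![![false, true], ![true, true]] : Fin 2 → Fin 2 → Bool) i (Fin.rev j)) := by
      funext i j
      fin_cases i <;> fin_cases j <;> rfl
    rw [e]
    exact ⟨cG, hcG, qrem_swapCols hG46⟩
  -- (1,1,0,0)
  · exact absurd ⟨rfl, rfl⟩ hcols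
  -- (1,1,0,1)
  · have e : pat true true false true
        = (fun i j => (![![false, true], ![true, true]] : Fin 2 → Fin 2 → Bool) (Fin.rev i) j) := by
      funext i j
      fin_cases i <;> fin_cases j <;> rfl
    rw [e]
    exact ⟨cG, hcG, qrem_swapRows hG46⟩
  -- (1,1,1,0)
  · have e : pat true true true false
        = (fun i j => (fun i j =>
            (![![false, true], ![true, true]] : Fin 2 → Fin 2 → Bool) i (Fin.rev j))
              (Fin.rev i) j) := by
      funext i j
      fin_cases i <;> fin_cases j <;> rfl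
    rw [e]
    exact ⟨cG, hcG, qrem_swapRows (qrem_swapCols hG46)⟩
  -- (1,1,1,1)
  · exact absurd ⟨rfl, rfl⟩ hrows

/-- **All ten 2 x 2 patterns with distinct rows and distinct columns.**  Given the quadruple
removal bound for the corner pattern `[[0,1],[1,1]]` with some constant and an exponent at most
`46`, every 2 x 2 pattern `H0` whose two rows differ and whose two columns differ satisfies the
quadruple removal bound with exponent `46`. -/
theorem two_by_two_base (cG : ℝ) (hcG : 0 < cG) (CG : ℕ) (hCG : CG ≤ 46)
    (hG : QRem ![![false, true], ![true, true]] cG CG)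
    (H0 : Fin 2 → Fin 2 → Bool) (hrows : H0 0 ≠ H0 1)
    (hcols : (fun i => H0 i 0) ≠ (fun i => H0 i 1)) :
    ∃ c : ℝ, 0 < c ∧ QRem H0 c 46 := by
  rw [eq_pat H0]
  apply pat_base cG hcG CG hCG hG
  · rintro ⟨h1, h2⟩
    apply hrows
    funext j
    fin_cases j
    · exact h1
    · exact h2
  · rintro ⟨h1, h2⟩
    apply hcols
    funext i
    fin_cases i
    · exact h1
    · exact h2

end Vale.Agent.Lib.P037B
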