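import Mathlib
import Vale.Agent.Lib.P037B.QRem

/-!
# Transposition transfers a removal bound for a 2 x 2 pattern

If the quadruple removal bound `QRem H0 c C` holds for a 2 x 2 pattern `H0`, it holds with the
same constants for the transposed pattern `fun i j => H0 j i`.
-/

namespace Vale.Agent.Lib.P037B

/-- The transpose of a square matrix. -/
def transp {n : ℕ} (A : Fin n → Fin n → Bool) : Fin n → Fin n → Bool :=
  fun r c => A c r

theorem transp_transp {n : ℕ} (A : Fin n → Fin n → Bool) : transp (transp A) = A := rfl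

theorem quad_transp_iff {n : ℕ} (H0 : Fin 2 → Fin 2 → Bool) (A : Fin n → Fin n → Bool)
    (r1 r2 c1 c2 : Fin n) :
    Quad (fun i j => H0 j i) A r1 r2 c1 c2 ↔ Quad H0 (transp A) c1 c2 r1 r2 := by
  unfold Quad transp
  tauto

theorem entryDiff_transp {n : ℕ} (A B : Fin n → Fin n → Bool) :
    entryDiff (transp A) (transp B) = entryDiff A B := by
  unfold entryDiff
  apply Finset.card_equiv (Equiv.prodComm (Fin n) (Fin n))
  intro x
  simp only [Finset.mem_filter, Finset.mem_univ, true_and]
  exact Iff.rfl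

theorem qcount_transp {n : ℕ} (H0 : Fin 2 → Fin 2 → Bool) (A : Fin n → Fin n → Bool) :
    qcount (fun i j => H0 j i) A = qcount H0 (transp A) := by
  unfold qcount
  have hinj : Function.Injective (fun y : Fin n × Fin n × Fin n × Fin n =>
      ((y.2.2.1, y.2.2.2, y.1, y.2.1) : Fin n × Fin n × Fin n × Fin n)) := by
    rintro ⟨a1, a2, a3, a4⟩ ⟨b1, b2, b3, b4⟩ h
    simp only [Prod.mk.injEq] at h
    obtain ⟨h1, h2, h3, h4⟩ := h
    rw [h1, h2, h3, h4]
  rw [← Set.ncard_image_of_injective _ hinj]
  congr 1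
  ext x
  constructor
  · rintro ⟨y, hy, rfl⟩
    exact (quad_transp_iff H0 A _ _ _ _).mp hy
  · intro hx
    refine ⟨(x.2.2.1, x.2.2.2, x.1, x.2.1), ?_, rfl⟩
    exact (quad_transp_iff H0 A _ _ _ _).mpr hx

/-- Transposing the pattern preserves the quadruple removal bound, with the same constants. -/
theorem qrem_transpose {H0 : Fin 2 → Fin 2 → Bool} {c : ℝ} {C : ℕ} (h : QRem H0 c C) :
    QRem (fun i j => H0 j i) c C := by
  refine qrem_transfer (fun _ A => transp A) (fun _ A => transp_transp A)
    (fun _ A B => entryDiff_transp A B) (fun _ A => qcount_transp H0 A) ?_ h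
  intro n B hB r1 r2 c1 c2 hq
  have h1 := (quad_transp_iff H0 (transp B) r1 r2 c1 c2).mp hq
  rw [transp_transp] at h1
  exact hB _ _ _ _ h1

end Vale.Agent.Lib.P037B
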