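import Mathlib
import Vale.Agent.Lib.P037B.QRem
import Vale.Agent.Lib.P037B.AllBase
import Vale.Agent.Lib.P037B.AllOnes
import Vale.Agent.Lib.P037B.EqualRows
import Vale.Agent.Lib.P037B.SymCompl
import Vale.Agent.Lib.P037B.SymTr
import Vale.Agent.Lib.P037B.Sym
import Vale.Agent.Lib.P037G.Main
import Vale.Agent.Lib.P037G.Bridge

/-!
# A quadruple-form polynomial removal bound for every 2 x 2 binary pattern
-/

namespace Vale.Agent.Lib.P037B

/-- The corner pattern `[[0,1],[1,1]]` has a quadruple-form removal bound with exponent 18. -/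
theorem qrem_corner :
    QRem ![![false, true], ![true, true]] (1 / (676 * 29 ^ 16)) 18 := by
  intro n A ε hε hε1 hfar
  have h := Vale.Agent.Lib.P037G.corner_removal n A ε hε hε1
    (fun B hB => hfar B ((Vale.Agent.Lib.P037G.gfree_iff B).mp hB))
  rw [Vale.Agent.Lib.P037G.NG_eq_qcount] at h
  exact h

/-- Every 2 x 2 binary pattern has a quadruple-form removal bound with exponent 46. -/
theorem sixteen_base (H0 : Fin 2 → Fin 2 → Bool) : ∃ c : ℝ, 0 < c ∧ QRem H0 c 46 :=
  all_base
    (fun H0 h1 h2 => two_by_two_base (1 / (676 * 29 ^ 16)) (by positivity) 18 (by norm_num)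
      qrem_corner H0 h1 h2)
    ⟨1 / 256, by norm_num, 16, by norm_num, qrem_allOnes⟩
    (fun x => ⟨1 / 10000, by norm_num, 8, by norm_num, qrem_rowsEq x⟩)
    (fun _ _ _ h => qrem_compl h)
    (fun _ _ _ h => qrem_transpose h)
    H0

end Vale.Agent.Lib.P037B
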